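import Mathlib
import Vale.Agent.Lib.P037.Defs

/-!
Pairwise thresholds from sampled columns, the induced tournament at every column
position, and its transitivity up to pairs of rows that carry a copy of `I_2`
inside the sampled columns.
-/

namespace Vale.Agent.Lib.P037.helper17

open Finset Vale.Agent.Lib.P037

variable {n r1 r2 : ℕ}

/-- `(i, j, c, d)` is an ordered copy of `I_2 = [[1,0],[0,1]]` in `A`. -/
def Cp (A : BMat n) (i j c d : Fin n) : Prop :=
  i < j ∧ c < d ∧ A i c = true ∧ A i d = false ∧ A j c = false ∧ A j d = true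

instance (A : BMat n) (i j c d : Fin n) : Decidable (Cp A i j c d) := by
  unfold Cp; infer_instance

theorem cp_iff (A : BMat n) (i j c d : Fin n) : IsCopy patI2 A i j c d ↔ Cp A i j c d := by
  unfold IsCopy Cp patI2
  simp

/-- A sampled column `f l` at or after position `c` in which row `x` has a zero
and row `y` has a one. -/
def Wit (A : BMat n) (f : Fin r2 → Fin n) (x y c : Fin n) : Prop :=
  ∃ l, c ≤ f l ∧ A x (f l) = false ∧ A y (f l) = true

instance (A : BMat n) (f : Fin r2 → Fin n) (x y c : Fin n) : Decidable (Wit A f x y c) := by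
  unfold Wit; infer_instance

/-- Row `a` is above row `b` at column position `c` (tournament defined by the sample). -/
def Above (A : BMat n) (f : Fin r2 → Fin n) (a b c : Fin n) : Prop :=
  (b < a ∧ Wit A f b a c) ∨ (a < b ∧ ¬ Wit A f a b c)

instance (A : BMat n) (f : Fin r2 → Fin n) (a b c : Fin n) : Decidable (Above A f a b c) := by
  unfold Above; infer_instance

/-- Rows `x < y` carry a copy of `I_2` on two sampled columns. -/
def Gam (A : BMat n) (f : Fin r2 → Fin n) (x y : Fin n) : Prop :=
  ∃ l l', Cp A x y (f l) (f l')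

instance (A : BMat n) (f : Fin r2 → Fin n) (x y : Fin n) : Decidable (Gam A f x y) := by
  unfold Gam; infer_instance

/-- Symmetrised `Gam`. -/
def GamU (A : BMat n) (f : Fin r2 → Fin n) (x y : Fin n) : Prop :=
  Gam A f x y ∨ Gam A f y x

instance (A : BMat n) (f : Fin r2 → Fin n) (x y : Fin n) : Decidable (GamU A f x y) := by
  unfold GamU; infer_instance

theorem gam_lt {A : BMat n} {f : Fin r2 → Fin n} {x y : Fin n} (h : Gam A f x y) : x < y := by
  obtain ⟨l, l', h⟩ := h
  exact h.1

theorem gamU_symm {A : BMat n} {f : Fin r2 → Fin n} {x y : Fin n} (h : GamU A f x y) :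
    GamU A f y x := by
  unfold GamU at *
  tauto

theorem above_of_lt {A : BMat n} {f : Fin r2 → Fin n} {a b c : Fin n} (h : a < b) :
    Above A f a b c ↔ ¬ Wit A f a b c := by
  unfold Above
  constructor
  · rintro (⟨h1, -⟩ | ⟨-, h2⟩)
    · exact absurd h1 (not_lt.mpr (le_of_lt h))
    · exact h2
  · intro h2
    exact Or.inr ⟨h, h2⟩

theorem above_of_gt {A : BMat n} {f : Fin r2 → Fin n} {a b c : Fin n} (h : b < a) :
    Above A f a b c ↔ Wit A f b a c := by
  unfold Above
  constructor
  · rintro (⟨-, h2⟩ | ⟨h1, -⟩)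
    · exact h2
    · exact absurd h1 (not_lt.mpr (le_of_lt h))
  · intro h2
    exact Or.inl ⟨h, h2⟩

theorem above_irrefl {A : BMat n} {f : Fin r2 → Fin n} {a c : Fin n} : ¬ Above A f a a c := by
  unfold Above
  rintro (⟨h, -⟩ | ⟨h, -⟩) <;> exact lt_irrefl _ h

theorem above_ne {A : BMat n} {f : Fin r2 → Fin n} {a b c : Fin n} (h : Above A f a b c) :
    a ≠ b := by
  rintro rfl
  exact above_irrefl h

theorem above_asymm {A : BMat n} {f : Fin r2 → Fin n} {a b c : Fin n}
    (h : Above A f a b c) : ¬ Above A f b a c := by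
  intro h'
  rcases lt_trichotomy a b with hab | hab | hab
  · rw [above_of_lt hab] at h
    rw [above_of_gt hab] at h'
    exact h h'
  · subst hab
    exact above_irrefl h
  · rw [above_of_gt hab] at h
    rw [above_of_lt hab] at h'
    exact h' h

theorem above_total {A : BMat n} {f : Fin r2 → Fin n} {a b : Fin n} (c : Fin n) (hab : a ≠ b)
    (h : ¬ Above A f a b c) : Above A f b a c := by
  rcases lt_or_gt_of_ne hab with h1 | h1
  · rw [above_of_lt h1] at h
    rw [above_of_gt h1]
    exact not_not.mp h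
  · rw [above_of_gt h1] at h
    rw [above_of_lt h1]
    exact h

/-- Monotonicity of witnesses in the position. -/
theorem wit_mono {A : BMat n} {f : Fin r2 → Fin n} {x y c c' : Fin n} (hc : c ≤ c')
    (h : Wit A f x y c') : Wit A f x y c := by
  obtain ⟨l, h1, h2, h3⟩ := h
  exact ⟨l, le_trans hc h1, h2, h3⟩

/-- A witness for `(a, g)` is a witness for `(a, b)` or for `(b, g)`. -/
theorem wit_split {A : BMat n} {f : Fin r2 → Fin n} {a g c : Fin n} (b : Fin n)
    (h : Wit A f a g c) : Wit A f a b c ∨ Wit A f b g c := by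
  obtain ⟨l, h1, h2, h3⟩ := h
  by_cases hb : A b (f l) = true
  · exact Or.inl ⟨l, h1, h2, hb⟩
  · exact Or.inr ⟨l, h1, by simpa using hb, h3⟩

/-- The only possible cyclic triple produces a copy on two sampled columns. -/
theorem wit_cycle {A : BMat n} {f : Fin r2 → Fin n} {a b g c : Fin n} (hab : a < b) (hbg : b < g)
    (h1 : Wit A f a b c) (h2 : Wit A f b g c) (h3 : ¬ Wit A f a g c) :
    Gam A f b g ∨ Gam A f a b := by
  obtain ⟨l1, hc1, ha1, hb1⟩ := h1
  obtain ⟨l2, hc2, hb2, hg2⟩ := h2
  have hg1 : A g (f l1) = false := by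
    by_contra hcon
    exact h3 ⟨l1, hc1, ha1, by simpa using hcon⟩
  have ha2 : A a (f l2) = true := by
    by_contra hcon
    exact h3 ⟨l2, hc2, by simpa using hcon, hg2⟩
  have hne : f l1 ≠ f l2 := by
    intro he
    rw [he] at hb1
    rw [hb1] at hb2
    exact Bool.noConfusion hb2
  rcases lt_or_gt_of_ne hne with hlt | hlt
  · exact Or.inl ⟨l1, l2, hbg, hlt, hb1, hb2, hg1, hg2⟩
  · exact Or.inr ⟨l2, l1, hab, hlt, ha2, ha1, hb2, hb1⟩

/-- Transitivity of `Above` up to sampled copies inside the triple. -/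
theorem above_trans {A : BMat n} {f : Fin r2 → Fin n} {x y z c : Fin n}
    (hxz : x ≠ z) (h1 : Above A f x y c) (h2 : Above A f y z c) :
    Above A f x z c ∨ GamU A f x y ∨ GamU A f y z ∨ GamU A f x z := by
  by_contra hcon
  push Not at hcon
  obtain ⟨hn, g1, g2, g3⟩ := hcon
  have h3 : Above A f z x c := above_total c hxz hn
  have hxy : x ≠ y := above_ne h1
  have hyz : y ≠ z := above_ne h2
  unfold GamU at g1 g2 g3
  push Not at g1 g2 g3
  rcases lt_or_gt_of_ne hxy with a1 | a1 <;> rcases lt_or_gt_of_ne hyz with a2 | a2 <;>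
    rcases lt_or_gt_of_ne hxz with a3 | a3
  · -- x < y < z
    rw [above_of_lt a1] at h1
    rw [above_of_lt a2] at h2
    rw [above_of_gt a3] at h3
    rcases wit_split y h3 with w | w
    · exact h1 w
    · exact h2 w
  · exact absurd (lt_trans a1 a2) (not_lt.mpr (le_of_lt a3))
  · -- x < z < y
    rw [above_of_lt a1] at h1
    rw [above_of_gt a2] at h2
    rw [above_of_gt a3] at h3
    rcases wit_cycle a3 a2 h3 h2 h1 with w | w
    · exact g2.2 w
    · exact g3.1 w
  · -- z < x < y
    rw [above_of_lt a1] at h1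
    rw [above_of_gt a2] at h2
    rw [above_of_lt a3] at h3
    rcases wit_split x h2 with w | w
    · exact h3 w
    · exact h1 w
  · -- y < x < z
    rw [above_of_gt a1] at h1
    rw [above_of_lt a2] at h2
    rw [above_of_gt a3] at h3
    rcases wit_cycle a1 a3 h1 h3 h2 with w | w
    · exact g3.1 w
    · exact g1.2 w
  · -- y < z < x
    rw [above_of_gt a1] at h1
    rw [above_of_lt a2] at h2
    rw [above_of_lt a3] at h3
    rcases wit_split z h1 with w | w
    · exact h2 w
    · exact h3 w
  · exact absurd (lt_trans a2 a1) (not_lt.mpr (le_of_lt a3))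
  · -- z < y < x
    rw [above_of_gt a1] at h1
    rw [above_of_gt a2] at h2
    rw [above_of_lt a3] at h3
    rcases wit_cycle a2 a1 h2 h1 h3 with w | w
    · exact g1.2 w
    · exact g2.2 w

end Vale.Agent.Lib.P037.helper17
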