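import Mathlib
import Vale.Agent.Lib.P037.Defs
import Vale.Agent.Lib.P037.helper17.Order

/-!
The rounded matrix `Bm` built from sampled columns `f` and pivot rows `g`,
the location of its copies, and the decomposition of its difference from `A`.
-/

namespace Vale.Agent.Lib.P037.helper17

open Finset Vale.Agent.Lib.P037

variable {n r1 r2 : ℕ}

/-- Number of pivots (with multiplicity) that are equal to or below row `i` at position `c`. -/
def lev (A : BMat n) (f : Fin r2 → Fin n) (g : Fin r1 → Fin n) (i c : Fin n) : ℕ :=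
  (univ.filter (fun k => g k = i ∨ Above A f i (g k) c)).card

/-- Number of pivots (with multiplicity) having a zero in column `c`. -/
def tht (A : BMat n) (g : Fin r1 → Fin n) (c : Fin n) : ℕ :=
  (univ.filter (fun k => A (g k) c = false)).card

/-- The rounded matrix. -/
def Bm (A : BMat n) (f : Fin r2 → Fin n) (g : Fin r1 → Fin n) : BMat n :=
  fun i c => decide (tht A g c < lev A f g i c)

/-- Row `x` carries a sampled copy together with some pivot row. -/
def Bad (A : BMat n) (f : Fin r2 → Fin n) (g : Fin r1 → Fin n) (x : Fin n) : Prop :=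
  ∃ k, GamU A f x (g k)

instance (A : BMat n) (f : Fin r2 → Fin n) (g : Fin r1 → Fin n) (x : Fin n) :
    Decidable (Bad A f g x) := by
  unfold Bad; infer_instance

/-- Order-value violation: `x` is above `y` at `c` but `x` has a zero and `y` a one. -/
def Viol (A : BMat n) (f : Fin r2 → Fin n) (x y c : Fin n) : Prop :=
  Above A f x y c ∧ A x c = false ∧ A y c = true

instance (A : BMat n) (f : Fin r2 → Fin n) (x y c : Fin n) : Decidable (Viol A f x y c) := by
  unfold Viol; infer_instance

/-- A one of `A` not witnessed by any pivot. -/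
def Unw (A : BMat n) (f : Fin r2 → Fin n) (g : Fin r1 → Fin n) (i c : Fin n) : Prop :=
  A i c = true ∧ ∀ k, (g k = i ∨ Above A f i (g k) c) → A (g k) c = false

instance (A : BMat n) (f : Fin r2 → Fin n) (g : Fin r1 → Fin n) (i c : Fin n) :
    Decidable (Unw A f g i c) := by
  unfold Unw; infer_instance

theorem lev_gt_tht {A : BMat n} {f : Fin r2 → Fin n} {g : Fin r1 → Fin n} {i c : Fin n}
    (h : tht A g c < lev A f g i c) :
    ∃ k, (g k = i ∨ Above A f i (g k) c) ∧ A (g k) c = true := by
  by_contra hcon
  push Not at hcon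
  have hsub : (univ.filter (fun k => g k = i ∨ Above A f i (g k) c)) ⊆
      (univ.filter (fun k => A (g k) c = false)) := by
    intro k hk
    rw [mem_filter] at hk ⊢
    refine ⟨mem_univ _, ?_⟩
    have := hcon k hk.2
    simpa using this
  have := Finset.card_le_card hsub
  unfold lev tht at h
  omega

theorem lev_lt_lev {A : BMat n} {f : Fin r2 → Fin n} {g : Fin r1 → Fin n} {i j c : Fin n}
    (h : lev A f g j c < lev A f g i c) :
    ∃ k, (g k = i ∨ Above A f i (g k) c) ∧ ¬ (g k = j ∨ Above A f j (g k) c) := by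
  by_contra hcon
  push Not at hcon
  have hsub : (univ.filter (fun k => g k = i ∨ Above A f i (g k) c)) ⊆
      (univ.filter (fun k => g k = j ∨ Above A f j (g k) c)) := by
    intro k hk
    rw [mem_filter] at hk ⊢
    exact ⟨mem_univ _, hcon k hk.2⟩
  have := Finset.card_le_card hsub
  unfold lev at h
  omega

theorem lev_le_tht {A : BMat n} {f : Fin r2 → Fin n} {g : Fin r1 → Fin n} {i c : Fin n}
    (h : lev A f g i c ≤ tht A g c) :
    (∀ k, (g k = i ∨ Above A f i (g k) c) → A (g k) c = false) ∨
      ∃ k, A (g k) c = false ∧ ¬ (g k = i ∨ Above A f i (g k) c) := by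
  by_contra hcon
  push Not at hcon
  obtain ⟨⟨k0, hk0, hk0'⟩, hall⟩ := hcon
  have hsub : (univ.filter (fun k => A (g k) c = false)) ⊆
      (univ.filter (fun k => g k = i ∨ Above A f i (g k) c)) := by
    intro k hk
    rw [mem_filter] at hk ⊢
    exact ⟨mem_univ _, hall k hk.2⟩
  have hss : (univ.filter (fun k => A (g k) c = false)) ⊂
      (univ.filter (fun k => g k = i ∨ Above A f i (g k) c)) := by
    refine Finset.ssubset_iff_subset_ne.mpr ⟨hsub, ?_⟩
    intro he
    have hk : k0 ∈ (univ.filter (fun k => g k = i ∨ Above A f i (g k) c)) := by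
      rw [mem_filter]; exact ⟨mem_univ _, hk0⟩
    rw [← he, mem_filter] at hk
    exact hk0' hk.2
  have := Finset.card_lt_card hss
  unfold lev tht at h
  omega

/-- Every copy of `I_2` in the rounded matrix sits on a sampled-copy pair of rows,
or uses a bad row. -/
theorem copy_Bm {A : BMat n} {f : Fin r2 → Fin n} {g : Fin r1 → Fin n} {i j c d : Fin n}
    (h : Cp (Bm A f g) i j c d) : Gam A f i j ∨ Bad A f g i ∨ Bad A f g j := by
  obtain ⟨hij, hcd, e1, e2, e3, e4⟩ := h
  unfold Bm at e1 e2 e3 e4
  simp only [decide_eq_true_eq, decide_eq_false_iff_not, not_lt] at e1 e2 e3 e4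
  have hne : i ≠ j := ne_of_lt hij
  by_contra hcon
  push Not at hcon
  obtain ⟨hG, hBi, hBj⟩ := hcon
  have hGU : ¬ GamU A f i j := by
    rintro (h | h)
    · exact hG h
    · exact absurd (gam_lt h) (not_lt.mpr (le_of_lt hij))
  -- at column c: i is above j
  have hc : Above A f i j c := by
    obtain ⟨k, hk1, hk2⟩ := lev_lt_lev (lt_of_le_of_lt e3 e1)
    push Not at hk2
    have hpj : Above A f (g k) j c := above_total c (Ne.symm hk2.1) hk2.2
    rcases hk1 with hk1 | hk1
    · rw [hk1] at hpj; exact hpj
    · rcases above_trans hne hk1 hpj with t | t | t | t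
      · exact t
      · exact absurd ⟨k, t⟩ hBi
      · exact absurd ⟨k, gamU_symm t⟩ hBj
      · exact absurd t hGU
  -- at column d: j is above i
  have hd : Above A f j i d := by
    obtain ⟨k, hk1, hk2⟩ := lev_lt_lev (lt_of_le_of_lt e2 e4)
    push Not at hk2
    have hpi : Above A f (g k) i d := above_total d (Ne.symm hk2.1) hk2.2
    rcases hk1 with hk1 | hk1
    · rw [hk1] at hpi; exact hpi
    · rcases above_trans (Ne.symm hne) hk1 hpi with t | t | t | t
      · exact t
      · exact absurd ⟨k, t⟩ hBj
      · exact absurd ⟨k, gamU_symm t⟩ hBi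
      · exact absurd (gamU_symm t) hGU
  rw [above_of_lt hij] at hc
  rw [above_of_gt hij] at hd
  exact hc (wit_mono (le_of_lt hcd) hd)

/-- Every entry where `A` and the rounded matrix differ is explained by an order-value
violation with a pivot, or is an unwitnessed one. -/
theorem diff_Bm {A : BMat n} {f : Fin r2 → Fin n} {g : Fin r1 → Fin n} {i c : Fin n}
    (h : A i c ≠ Bm A f g i c) :
    (∃ k, Viol A f i (g k) c) ∨ (∃ k, Viol A f (g k) i c) ∨ Unw A f g i c := by
  by_cases hA : A i c = true
  · have hB : Bm A f g i c = false := by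
      rw [hA] at h
      cases hb : Bm A f g i c
      · rfl
      · exact absurd hb.symm h
    unfold Bm at hB
    simp only [decide_eq_false_iff_not, not_lt] at hB
    rcases lev_le_tht hB with h1 | ⟨k, hk1, hk2⟩
    · exact Or.inr (Or.inr ⟨hA, h1⟩)
    · push Not at hk2
      refine Or.inr (Or.inl ⟨k, above_total c (Ne.symm hk2.1) hk2.2, hk1, hA⟩)
  · have hA' : A i c = false := by simpa using hA
    have hB : Bm A f g i c = true := by
      rw [hA'] at h
      cases hb : Bm A f g i c
      · exact absurd hb.symm h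
      · rfl
    unfold Bm at hB
    simp only [decide_eq_true_eq] at hB
    obtain ⟨k, hk1, hk2⟩ := lev_gt_tht hB
    rcases hk1 with hk1 | hk1
    · rw [hk1, hA'] at hk2
      exact Bool.noConfusion hk2
    · exact Or.inl ⟨k, hk1, hA', hk2⟩

/-- Number of sampled columns at or after position `c`. -/
def cnt (f : Fin r2 → Fin n) (c : Fin n) : ℕ :=
  (univ.filter (fun l => c ≤ f l)).card

theorem cnt_le (f : Fin r2 → Fin n) (c : Fin n) : cnt f c ≤ r2 := by
  unfold cnt
  calc _ ≤ (univ : Finset (Fin r2)).card := Finset.card_le_card (Finset.filter_subset _ _)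
    _ = r2 := by simp

theorem tht_le (A : BMat n) (g : Fin r1 → Fin n) (c : Fin n) : tht A g c ≤ r1 := by
  unfold tht
  calc _ ≤ (univ : Finset (Fin r1)).card := Finset.card_le_card (Finset.filter_subset _ _)
    _ = r1 := by simp

theorem cnt_eq {f : Fin r2 → Fin n} {c c' : Fin n} (h : cnt f c = cnt f c') (l : Fin r2) :
    c ≤ f l ↔ c' ≤ f l := by
  have key : ∀ a b : Fin n, a ≤ b → cnt f a = cnt f b → ∀ l, a ≤ f l → b ≤ f l := by
    intro a b hab he l hl
    have hsub : (univ.filter (fun l => b ≤ f l)) ⊆ (univ.filter (fun l => a ≤ f l)) := by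
      intro x hx
      rw [mem_filter] at hx ⊢
      exact ⟨mem_univ _, le_trans hab hx.2⟩
    have heq := Finset.eq_of_subset_of_card_le hsub (by unfold cnt at he; omega)
    have : l ∈ (univ.filter (fun l => a ≤ f l)) := by
      rw [mem_filter]; exact ⟨mem_univ _, hl⟩
    rw [← heq, mem_filter] at this
    exact this.2
  rcases le_total c c' with hcc | hcc
  · exact ⟨key c c' hcc h l, fun hl => le_trans hcc hl⟩
  · exact ⟨fun hl => le_trans hcc hl, key c' c hcc h.symm l⟩

theorem wit_congr {A : BMat n} {f : Fin r2 → Fin n} {c c' : Fin n} (h : cnt f c = cnt f c')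
    (x y : Fin n) : Wit A f x y c ↔ Wit A f x y c' := by
  unfold Wit
  constructor
  · rintro ⟨l, h1, h2⟩
    exact ⟨l, (cnt_eq h l).mp h1, h2⟩
  · rintro ⟨l, h1, h2⟩
    exact ⟨l, (cnt_eq h l).mpr h1, h2⟩

theorem above_congr {A : BMat n} {f : Fin r2 → Fin n} {c c' : Fin n} (h : cnt f c = cnt f c')
    (a b : Fin n) : Above A f a b c ↔ Above A f a b c' := by
  unfold Above
  rw [wit_congr h, wit_congr h]

/-- Columns of the rounded matrix with equal keys are equal. -/
theorem Bm_congr {A : BMat n} {f : Fin r2 → Fin n} {g : Fin r1 → Fin n} {c c' : Fin n}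
    (h1 : cnt f c = cnt f c') (h2 : tht A g c = tht A g c') (i : Fin n) :
    Bm A f g i c = Bm A f g i c' := by
  have hl : lev A f g i c = lev A f g i c' := by
    unfold lev
    congr 1
    apply Finset.filter_congr
    intro k _
    rw [above_congr h1]
  unfold Bm
  rw [hl, h2]

end Vale.Agent.Lib.P037.helper17
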