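import Mathlib
import Vale.Agent.Lib.P037.Defs
import Vale.Agent.Lib.P037.helper29.Cut
import Vale.Agent.Lib.P037.helper17.Round

/-!
Zeroing the bad rows and a small set of covering rows turns the rounded matrix
into an `I_2`-free matrix; bound on the distance from `A`.
-/

namespace Vale.Agent.Lib.P037.helper17

open Finset Vale.Agent.Lib.P037 Vale.Agent.Lib.P037.helper29

variable {n r1 r2 : ℕ}

/-- The rounded matrix with the bad rows zeroed. -/
def Mz (A : BMat n) (f : Fin r2 → Fin n) (g : Fin r1 → Fin n) : BMat n :=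
  fun i c => Bm A f g i c && decide (¬ Bad A f g i)

/-- The key of a column: number of sampled columns at or after it, number of pivot zeros. -/
def key (A : BMat n) (f : Fin r2 → Fin n) (g : Fin r1 → Fin n) (c : Fin n) : ℕ × ℕ :=
  (cnt f c, tht A g c)

/-- The set of keys that occur. -/
def Keys (A : BMat n) (f : Fin r2 → Fin n) (g : Fin r1 → Fin n) : Finset (ℕ × ℕ) :=
  univ.image (key A f g)

theorem keys_card (A : BMat n) (f : Fin r2 → Fin n) (g : Fin r1 → Fin n) :
    (Keys A f g).card ≤ (r2 + 1) * (r1 + 1) := by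
  have hsub : Keys A f g ⊆ (Finset.range (r2 + 1)) ×ˢ (Finset.range (r1 + 1)) := by
    intro k hk
    unfold Keys at hk
    rw [mem_image] at hk
    obtain ⟨c, -, rfl⟩ := hk
    rw [Finset.mem_product, Finset.mem_range, Finset.mem_range]
    unfold key
    exact ⟨Nat.lt_succ_of_le (cnt_le f c), Nat.lt_succ_of_le (tht_le A g c)⟩
  calc _ ≤ ((Finset.range (r2 + 1)) ×ˢ (Finset.range (r1 + 1))).card := Finset.card_le_card hsub
    _ = (r2 + 1) * (r1 + 1) := by rw [Finset.card_product, Finset.card_range, Finset.card_range]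

theorem Mz_congr {A : BMat n} {f : Fin r2 → Fin n} {g : Fin r1 → Fin n} {c c' : Fin n}
    (h : key A f g c = key A f g c') (i : Fin n) : Mz A f g i c = Mz A f g i c' := by
  unfold key at h
  rw [Prod.mk.injEq] at h
  unfold Mz
  rw [Bm_congr h.1 h.2]

/-- The column of `Mz` attached to a key. -/
def colOf (A : BMat n) (f : Fin r2 → Fin n) (g : Fin r1 → Fin n) (k : ℕ × ℕ) : Fin n → Bool :=
  fun i => decide (∃ c, key A f g c = k ∧ Mz A f g i c = true)

theorem colOf_key (A : BMat n) (f : Fin r2 → Fin n) (g : Fin r1 → Fin n) (c i : Fin n) :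
    colOf A f g (key A f g c) i = Mz A f g i c := by
  unfold colOf
  cases hM : Mz A f g i c
  · rw [decide_eq_false_iff_not]
    rintro ⟨c', hk, hc'⟩
    rw [Mz_congr hk i, hM] at hc'
    exact Bool.noConfusion hc'
  · rw [decide_eq_true_eq]
    exact ⟨c, rfl, hM⟩

/-- The pair of keys is realised by two columns in increasing order. -/
def Real2 (A : BMat n) (f : Fin r2 → Fin n) (g : Fin r1 → Fin n) (k1 k2 : ℕ × ℕ) : Prop :=
  ∃ c d, c < d ∧ key A f g c = k1 ∧ key A f g d = k2

instance (A : BMat n) (f : Fin r2 → Fin n) (g : Fin r1 → Fin n) (k1 k2 : ℕ × ℕ) :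
    Decidable (Real2 A f g k1 k2) := by
  unfold Real2; infer_instance

/-- Rows of pattern `(1, 0)` on the two key columns. -/
def Xp (A : BMat n) (f : Fin r2 → Fin n) (g : Fin r1 → Fin n) (k1 k2 : ℕ × ℕ) : Fin n → Prop :=
  fun i => colOf A f g k1 i = true ∧ colOf A f g k2 i = false

/-- Rows of pattern `(0, 1)` on the two key columns. -/
def Yp (A : BMat n) (f : Fin r2 → Fin n) (g : Fin r1 → Fin n) (k1 k2 : ℕ × ℕ) : Fin n → Prop :=
  fun j => colOf A f g k1 j = false ∧ colOf A f g k2 j = true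

instance (A : BMat n) (f : Fin r2 → Fin n) (g : Fin r1 → Fin n) (k1 k2 : ℕ × ℕ) :
    DecidablePred (Xp A f g k1 k2) := fun i => by
  unfold Xp; infer_instance

instance (A : BMat n) (f : Fin r2 → Fin n) (g : Fin r1 → Fin n) (k1 k2 : ℕ × ℕ) :
    DecidablePred (Yp A f g k1 k2) := fun i => by
  unfold Yp; infer_instance

/-- Covering rows for one pair of keys. -/
def cov1 (A : BMat n) (f : Fin r2 → Fin n) (g : Fin r1 → Fin n) (k1 k2 : ℕ × ℕ) :
    Finset (Fin n) :=
  if Real2 A f g k1 k2 then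
    cut (Xp A f g k1 k2) (Yp A f g k1 k2) (Nat.sqrt (inv (Xp A f g k1 k2) (Yp A f g k1 k2)).card)
  else ∅

/-- All covering rows. -/
def Cov (A : BMat n) (f : Fin r2 → Fin n) (g : Fin r1 → Fin n) : Finset (Fin n) :=
  (Keys A f g ×ˢ Keys A f g).biUnion (fun p => cov1 A f g p.1 p.2)

/-- The repaired matrix. -/
def Fz (A : BMat n) (f : Fin r2 → Fin n) (g : Fin r1 → Fin n) : BMat n :=
  fun i c => Mz A f g i c && decide (i ∉ Cov A f g)

/-- The pairs of rows carrying a copy on two sampled columns. -/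
def GamSet (A : BMat n) (f : Fin r2 → Fin n) : Finset (Fin n × Fin n) :=
  univ.filter (fun p => Gam A f p.1 p.2)

theorem Mz_true {A : BMat n} {f : Fin r2 → Fin n} {g : Fin r1 → Fin n} {i c : Fin n}
    (h : Mz A f g i c = true) : Bm A f g i c = true ∧ ¬ Bad A f g i := by
  unfold Mz at h
  simpa using h

theorem Mz_false {A : BMat n} {f : Fin r2 → Fin n} {g : Fin r1 → Fin n} {i c : Fin n}
    (h : Mz A f g i c = false) (hb : ¬ Bad A f g i) : Bm A f g i c = false := by
  unfold Mz at h
  simp only [Bool.and_eq_false_iff, decide_eq_false_iff_not, not_not] at h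
  rcases h with h | h
  · exact h
  · exact absurd h hb

theorem copy_Mz {A : BMat n} {f : Fin r2 → Fin n} {g : Fin r1 → Fin n} {i j c d : Fin n}
    (h : Cp (Mz A f g) i j c d) : Gam A f i j := by
  obtain ⟨hij, hcd, e1, e2, e3, e4⟩ := h
  have b1 := Mz_true e1
  have b4 := Mz_true e4
  have b2 := Mz_false e2 b1.2
  have b3 := Mz_false e3 b4.2
  rcases copy_Bm (A := A) (f := f) (g := g) ⟨hij, hcd, b1.1, b2, b3, b4.1⟩ with t | t | t
  · exact t
  · exact absurd t b1.2
  · exact absurd t b4.2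

theorem inv_sub {A : BMat n} {f : Fin r2 → Fin n} {g : Fin r1 → Fin n} {k1 k2 : ℕ × ℕ}
    (hreal : Real2 A f g k1 k2) :
    inv (Xp A f g k1 k2) (Yp A f g k1 k2) ⊆ GamSet A f := by
  obtain ⟨c, d, hcd, rfl, rfl⟩ := hreal
  intro p hp
  unfold inv at hp
  rw [mem_filter] at hp
  obtain ⟨-, hlt, hX, hY⟩ := hp
  unfold Xp at hX
  unfold Yp at hY
  rw [colOf_key, colOf_key] at hX hY
  unfold GamSet
  rw [mem_filter]
  exact ⟨mem_univ _, copy_Mz ⟨hlt, hcd, hX.1, hX.2, hY.1, hY.2⟩⟩

theorem cov1_card (A : BMat n) (f : Fin r2 → Fin n) (g : Fin r1 → Fin n) (k1 k2 : ℕ × ℕ) :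
    (cov1 A f g k1 k2).card ≤ 2 * Nat.sqrt (GamSet A f).card := by
  unfold cov1
  by_cases hreal : Real2 A f g k1 k2
  · rw [if_pos hreal]
    have h1 := cut_card (Xp A f g k1 k2) (Yp A f g k1 k2)
    have h2 : Nat.sqrt (inv (Xp A f g k1 k2) (Yp A f g k1 k2)).card ≤
        Nat.sqrt (GamSet A f).card := Nat.sqrt_le_sqrt (Finset.card_le_card (inv_sub hreal))
    omega
  · rw [if_neg hreal]
    simp

theorem Cov_card (A : BMat n) (f : Fin r2 → Fin n) (g : Fin r1 → Fin n) :
    (Cov A f g).card ≤ ((r2 + 1) * (r1 + 1)) ^ 2 * (2 * Nat.sqrt (GamSet A f).card) := by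
  unfold Cov
  have h1 := Finset.card_biUnion_le (s := Keys A f g ×ˢ Keys A f g)
    (t := fun p => cov1 A f g p.1 p.2)
  have h2 : ∑ p ∈ Keys A f g ×ˢ Keys A f g, (cov1 A f g p.1 p.2).card ≤
      (Keys A f g ×ˢ Keys A f g).card • (2 * Nat.sqrt (GamSet A f).card) := by
    apply Finset.sum_le_card_nsmul
    intro p _
    exact cov1_card A f g p.1 p.2
  rw [Finset.card_product, smul_eq_mul] at h2
  have h3 := keys_card A f g
  have h4 : (Keys A f g).card * (Keys A f g).card ≤ ((r2 + 1) * (r1 + 1)) ^ 2 := by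
    rw [pow_two]
    exact Nat.mul_le_mul h3 h3
  calc _ ≤ _ := h1
    _ ≤ _ := h2
    _ ≤ _ := Nat.mul_le_mul_right _ h4

theorem Fz_true {A : BMat n} {f : Fin r2 → Fin n} {g : Fin r1 → Fin n} {i c : Fin n}
    (h : Fz A f g i c = true) : Mz A f g i c = true ∧ i ∉ Cov A f g := by
  unfold Fz at h
  simpa using h

theorem Fz_false {A : BMat n} {f : Fin r2 → Fin n} {g : Fin r1 → Fin n} {i c : Fin n}
    (h : Fz A f g i c = false) (hb : i ∉ Cov A f g) : Mz A f g i c = false := by
  unfold Fz at h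
  simp only [Bool.and_eq_false_iff, decide_eq_false_iff_not, not_not] at h
  rcases h with h | h
  · exact h
  · exact absurd h hb

/-- The repaired matrix has no copy of `I_2`. -/
theorem Fz_free (A : BMat n) (f : Fin r2 → Fin n) (g : Fin r1 → Fin n) :
    IsFree patI2 (Fz A f g) := by
  intro i j c d h
  rw [cp_iff] at h
  obtain ⟨hij, hcd, e1, e2, e3, e4⟩ := h
  have b1 := Fz_true e1
  have b4 := Fz_true e4
  have b2 := Fz_false e2 b1.2
  have b3 := Fz_false e3 b4.2
  have hreal : Real2 A f g (key A f g c) (key A f g d) := ⟨c, d, hcd, rfl, rfl⟩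
  have hX : Xp A f g (key A f g c) (key A f g d) i := by
    unfold Xp
    rw [colOf_key, colOf_key]
    exact ⟨b1.1, b2⟩
  have hY : Yp A f g (key A f g c) (key A f g d) j := by
    unfold Yp
    rw [colOf_key, colOf_key]
    exact ⟨b3, b4.1⟩
  have hcut := cut_hits (Xp A f g (key A f g c) (key A f g d)) (Yp A f g (key A f g c) (key A f g d))
    (Nat.sqrt (inv (Xp A f g (key A f g c) (key A f g d))
      (Yp A f g (key A f g c) (key A f g d))).card) i j hij hX hY
  have hsub : cov1 A f g (key A f g c) (key A f g d) ⊆ Cov A f g := by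
    intro x hx
    unfold Cov
    rw [Finset.mem_biUnion]
    refine ⟨(key A f g c, key A f g d), ?_, hx⟩
    rw [Finset.mem_product]
    unfold Keys
    exact ⟨Finset.mem_image_of_mem _ (mem_univ _), Finset.mem_image_of_mem _ (mem_univ _)⟩
  have hc1 : cov1 A f g (key A f g c) (key A f g d) =
      cut (Xp A f g (key A f g c) (key A f g d)) (Yp A f g (key A f g c) (key A f g d))
        (Nat.sqrt (inv (Xp A f g (key A f g c) (key A f g d))
          (Yp A f g (key A f g c) (key A f g d))).card) := by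
    unfold cov1
    rw [if_pos hreal]
  rw [← hc1] at hcut
  rcases hcut with h | h
  · exact b1.2 (hsub h)
  · exact b4.2 (hsub h)

/-- Distance from `A` to the repaired matrix. -/
theorem dist_Fz (A : BMat n) (f : Fin r2 → Fin n) (g : Fin r1 → Fin n) :
    hammingDist A (Fz A f g) ≤
      (univ.filter (fun p : Fin n × Fin n => A p.1 p.2 ≠ Bm A f g p.1 p.2)).card +
        n * (univ.filter (fun x => Bad A f g x)).card + n * (Cov A f g).card := by
  unfold hammingDist
  have hsub : (univ.filter (fun p : Fin n × Fin n => A p.1 p.2 ≠ Fz A f g p.1 p.2)) ⊆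
      (univ.filter (fun p : Fin n × Fin n => A p.1 p.2 ≠ Bm A f g p.1 p.2)) ∪
        ((univ.filter (fun x => Bad A f g x)) ×ˢ (univ : Finset (Fin n))) ∪
        ((Cov A f g) ×ˢ (univ : Finset (Fin n))) := by
    intro p hp
    rw [mem_filter] at hp
    rw [mem_union, mem_union, mem_filter, Finset.mem_product, Finset.mem_product, mem_filter]
    by_contra hcon
    push Not at hcon
    obtain ⟨⟨h1, h2⟩, h3⟩ := hcon
    have h1' := h1 (mem_univ _)
    have h2' : ¬ Bad A f g p.1 := fun hb => h2 ⟨mem_univ _, hb⟩ (mem_univ _)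
    have h3' : p.1 ∉ Cov A f g := fun hb => h3 hb (mem_univ _)
    apply hp.2
    unfold Fz Mz
    rw [h1']
    simp [h2', h3']
  calc _ ≤ _ := Finset.card_le_card hsub
    _ ≤ ((univ.filter (fun p : Fin n × Fin n => A p.1 p.2 ≠ Bm A f g p.1 p.2)) ∪
        ((univ.filter (fun x => Bad A f g x)) ×ˢ (univ : Finset (Fin n)))).card +
        ((Cov A f g) ×ˢ (univ : Finset (Fin n))).card := Finset.card_union_le _ _
    _ ≤ (univ.filter (fun p : Fin n × Fin n => A p.1 p.2 ≠ Bm A f g p.1 p.2)).card +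
        ((univ.filter (fun x => Bad A f g x)) ×ˢ (univ : Finset (Fin n))).card +
        ((Cov A f g) ×ˢ (univ : Finset (Fin n))).card :=
          Nat.add_le_add_right (Finset.card_union_le _ _) _
    _ = _ := by
      rw [Finset.card_product, Finset.card_product, Finset.card_univ, Fintype.card_fin]
      ring

end Vale.Agent.Lib.P037.helper17
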