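import Mathlib

/-!
Counting lemmas over the space of sampling functions `Fin r → α`:
marginals of one and of two coordinates, and the exchangeability bound
(among `r + 1` samples at most one is the strict minimum of an asymmetric relation).
-/

namespace Vale.Agent.Lib.P037.helper17

open Finset

/-- Marginal of one coordinate. -/
theorem sum_coord {α : Type*} [Fintype α] [DecidableEq α] (r : ℕ) (k : Fin r) (φ : α → ℕ) :
    (∑ g : Fin r → α, φ (g k)) * Fintype.card α = Fintype.card α ^ r * ∑ a, φ a := by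
  obtain ⟨r', rfl⟩ : ∃ r', r = r' + 1 := ⟨r - 1, by have := k.pos; omega⟩
  have h1 : ∑ g : Fin (r' + 1) → α, φ (g k) =
      ∑ p : α × (Fin r' → α), φ ((Fin.insertNthEquiv (fun _ => α) k p) k) :=
    ((Fin.insertNthEquiv (fun _ => α) k).sum_comp (fun g => φ (g k))).symm
  have h2 : ∀ p : α × (Fin r' → α), φ ((Fin.insertNthEquiv (fun _ => α) k p) k) = φ p.1 := by
    intro p
    simp [Fin.insertNthEquiv]
  rw [h1, Finset.sum_congr rfl (fun p _ => h2 p), Fintype.sum_prod_type]
  simp only [Finset.sum_const, Finset.card_univ, smul_eq_mul, Fintype.card_pi_const]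
  rw [← Finset.mul_sum, pow_succ]
  ring

/-- Marginal of two distinct coordinates. -/
theorem sum_two_coord {α : Type*} [Fintype α] [DecidableEq α] (r : ℕ) (k l : Fin r) (hkl : k ≠ l)
    (ψ : α → α → ℕ) :
    (∑ g : Fin r → α, ψ (g k) (g l)) * Fintype.card α ^ 2 =
      Fintype.card α ^ r * ∑ a, ∑ b, ψ a b := by
  obtain ⟨r', rfl⟩ : ∃ r', r = r' + 1 := ⟨r - 1, by have := k.pos; omega⟩
  obtain ⟨l', rfl⟩ := Fin.exists_succAbove_eq (Ne.symm hkl)
  have h1 : ∑ g : Fin (r' + 1) → α, ψ (g k) (g (k.succAbove l')) =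
      ∑ p : α × (Fin r' → α), ψ ((Fin.insertNthEquiv (fun _ => α) k p) k)
        ((Fin.insertNthEquiv (fun _ => α) k p) (k.succAbove l')) :=
    ((Fin.insertNthEquiv (fun _ => α) k).sum_comp (fun g => ψ (g k) (g (k.succAbove l')))).symm
  have h2 : ∀ p : α × (Fin r' → α), ψ ((Fin.insertNthEquiv (fun _ => α) k p) k)
        ((Fin.insertNthEquiv (fun _ => α) k p) (k.succAbove l')) = ψ p.1 (p.2 l') := by
    intro p
    simp [Fin.insertNthEquiv]
  rw [h1, Finset.sum_congr rfl (fun p _ => h2 p), Fintype.sum_prod_type]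
  have h3 : ∀ a : α, (∑ g' : Fin r' → α, ψ a (g' l')) * Fintype.card α =
      Fintype.card α ^ r' * ∑ b, ψ a b := fun a => sum_coord r' l' (ψ a)
  calc (∑ a : α, ∑ g' : Fin r' → α, ψ a (g' l')) * Fintype.card α ^ 2
      = ∑ a : α, ((∑ g' : Fin r' → α, ψ a (g' l')) * Fintype.card α) * Fintype.card α := by
        rw [Finset.sum_mul, pow_two]
        apply Finset.sum_congr rfl
        intro a _
        ring
    _ = ∑ a : α, (Fintype.card α ^ r' * ∑ b, ψ a b) * Fintype.card α := by
        apply Finset.sum_congr rfl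
        intro a _
        rw [h3 a]
    _ = Fintype.card α ^ (r' + 1) * ∑ a, ∑ b, ψ a b := by
        rw [Finset.mul_sum, pow_succ]
        apply Finset.sum_congr rfl
        intro a _
        ring

/-- The event: sample `k` is in `O` and strictly below (for `lt`) every other sample in `O`. -/
def minEv {α : Type*} [Fintype α] [DecidableEq α] (r : ℕ) (O : α → Prop) [DecidablePred O]
    (lt : α → α → Prop) [DecidableRel lt] (k : Fin (r + 1)) : Finset (Fin (r + 1) → α) :=
  univ.filter (fun h => O (h k) ∧ ∀ l, l ≠ k → O (h l) → lt (h k) (h l))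

theorem minEv_card {α : Type*} [Fintype α] [DecidableEq α] (r : ℕ) (O : α → Prop)
    [DecidablePred O] (lt : α → α → Prop) [DecidableRel lt] (k : Fin (r + 1)) :
    (minEv r O lt k).card = (minEv r O lt 0).card := by
  apply Finset.card_bij (fun h _ => h ∘ (Equiv.swap 0 k))
  · intro h hh
    unfold minEv at hh ⊢
    rw [mem_filter] at hh ⊢
    refine ⟨mem_univ _, ?_, ?_⟩
    · simpa using hh.2.1
    · intro l hl hO
      have hl' : Equiv.swap 0 k l ≠ k := by
        intro he
        apply hl
        have := congrArg (Equiv.swap 0 k) he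
        simpa using this
      have := hh.2.2 (Equiv.swap 0 k l) hl' (by simpa using hO)
      simpa using this
  · intro h1 _ h2 _ he
    funext x
    have := congrFun he (Equiv.swap 0 k x)
    simpa using this
  · intro h hh
    refine ⟨h ∘ (Equiv.swap 0 k), ?_, ?_⟩
    · unfold minEv at hh ⊢
      rw [mem_filter] at hh ⊢
      refine ⟨mem_univ _, ?_, ?_⟩
      · simpa using hh.2.1
      · intro l hl hO
        have hl' : Equiv.swap 0 k l ≠ 0 := by
          intro he
          apply hl
          have := congrArg (Equiv.swap 0 k) he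
          simpa using this
        have := hh.2.2 (Equiv.swap 0 k l) hl' (by simpa using hO)
        simpa using this
    · funext x
      simp [Function.comp]

theorem minEv_disjoint {α : Type*} [Fintype α] [DecidableEq α] (r : ℕ) (O : α → Prop)
    [DecidablePred O] (lt : α → α → Prop) [DecidableRel lt] (hasym : ∀ a b, lt a b → ¬ lt b a)
    (k k' : Fin (r + 1)) (hk : k ≠ k') : Disjoint (minEv r O lt k) (minEv r O lt k') := by
  rw [Finset.disjoint_left]
  intro h h1 h2
  unfold minEv at h1 h2
  rw [mem_filter] at h1 h2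
  have a1 := h1.2.2 k' (Ne.symm hk) h2.2.1
  have a2 := h2.2.2 k hk h1.2.1
  exact hasym _ _ a1 a2

theorem minEv_zero_card {α : Type*} [Fintype α] [DecidableEq α] (r : ℕ) (O : α → Prop)
    [DecidablePred O] (lt : α → α → Prop) [DecidableRel lt] :
    ∑ g : Fin r → α, (univ.filter (fun a => O a ∧ ∀ l, O (g l) → lt a (g l))).card =
      (minEv r O lt 0).card := by
  have h1 : (minEv r O lt 0).card =
      ∑ h : Fin (r + 1) → α, if (O (h 0) ∧ ∀ l, l ≠ 0 → O (h l) → lt (h 0) (h l)) then 1 else 0 := by
    unfold minEv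
    rw [Finset.card_filter]
  have h2 : ∑ h : Fin (r + 1) → α,
      (if (O (h 0) ∧ ∀ l, l ≠ 0 → O (h l) → lt (h 0) (h l)) then 1 else 0) =
      ∑ p : α × (Fin r → α),
        (if (O p.1 ∧ ∀ l, O (p.2 l) → lt p.1 (p.2 l)) then 1 else 0) := by
    rw [← (Fin.insertNthEquiv (fun _ => α) 0).sum_comp]
    apply Finset.sum_congr rfl
    intro p _
    have hiff : (O ((Fin.insertNthEquiv (fun _ => α) 0 p) 0) ∧
        ∀ l, l ≠ 0 → O ((Fin.insertNthEquiv (fun _ => α) 0 p) l) →
          lt ((Fin.insertNthEquiv (fun _ => α) 0 p) 0) ((Fin.insertNthEquiv (fun _ => α) 0 p) l)) ↔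
        (O p.1 ∧ ∀ l, O (p.2 l) → lt p.1 (p.2 l)) := by
      have e0 : (Fin.insertNthEquiv (fun _ => α) 0 p) 0 = p.1 := by
        simp [Fin.insertNthEquiv]
      have es : ∀ l : Fin r, (Fin.insertNthEquiv (fun _ => α) 0 p) l.succ = p.2 l := by
        intro l
        simp [Fin.insertNthEquiv]
      rw [e0]
      constructor
      · rintro ⟨a1, a2⟩
        refine ⟨a1, fun l hl => ?_⟩
        have := a2 l.succ (Fin.succ_ne_zero l)
        rw [es l] at this
        exact this hl
      · rintro ⟨a1, a2⟩
        refine ⟨a1, fun l hl hO => ?_⟩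
        obtain ⟨l', rfl⟩ := Fin.exists_succ_eq.mpr hl
        rw [es l'] at hO ⊢
        exact a2 l' hO
    simp only [hiff]
  rw [h1, h2, Fintype.sum_prod_type, Finset.sum_comm]
  apply Finset.sum_congr rfl
  intro g _
  rw [Finset.card_filter]

/-- Exchangeability bound. -/
theorem exch_max {α : Type*} [Fintype α] [DecidableEq α] (r : ℕ) (O : α → Prop) [DecidablePred O]
    (lt : α → α → Prop) [DecidableRel lt] (hasym : ∀ a b, lt a b → ¬ lt b a) :
    (r + 1) * ∑ g : Fin r → α, (univ.filter (fun a => O a ∧ ∀ l, O (g l) → lt a (g l))).card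
      ≤ Fintype.card α ^ (r + 1) := by
  rw [minEv_zero_card]
  have h1 : ∑ k : Fin (r + 1), (minEv r O lt k).card = (r + 1) * (minEv r O lt 0).card := by
    rw [Finset.sum_congr rfl (fun k _ => minEv_card r O lt k)]
    simp
  have h2 : ∑ k : Fin (r + 1), (minEv r O lt k).card =
      ((univ : Finset (Fin (r + 1))).biUnion (fun k => minEv r O lt k)).card := by
    rw [Finset.card_biUnion]
    intro k _ k' _ hk
    exact minEv_disjoint r O lt hasym k k' hk
  have h3 : ((univ : Finset (Fin (r + 1))).biUnion (fun k => minEv r O lt k)).card ≤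
      Fintype.card α ^ (r + 1) := by
    calc _ ≤ (univ : Finset (Fin (r + 1) → α)).card := Finset.card_le_card (Finset.subset_univ _)
      _ = Fintype.card α ^ (r + 1) := by
        rw [Finset.card_univ, Fintype.card_pi_const]
  omega

end Vale.Agent.Lib.P037.helper17
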