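import Mathlib
import Vale.Agent.Lib.P037.Defs
import Vale.Agent.Lib.P037.helper17.Samp
import Vale.Agent.Lib.P037.helper17.Cover

/-!
Averages over the sampling functions: counting bounds (in `ℕ`) for the number of
violations, of sampled-copy pairs, of bad rows, and of unwitnessed ones.
-/

namespace Vale.Agent.Lib.P037.helper17

open Finset Vale.Agent.Lib.P037

variable {n r1 r2 : ℕ}

theorem card_prod_filter {β γ : Type*} [Fintype β] [Fintype γ] [DecidableEq β] [DecidableEq γ]
    (P : β → γ → Prop) [∀ b c, Decidable (P b c)] :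
    (univ.filter (fun p : β × γ => P p.1 p.2)).card = ∑ b, (univ.filter (fun c => P b c)).card := by
  rw [Finset.card_filter, Fintype.sum_prod_type]
  apply Finset.sum_congr rfl
  intro b _
  rw [Finset.card_filter]

theorem card_prod_filter' {β γ : Type*} [Fintype β] [Fintype γ] [DecidableEq β] [DecidableEq γ]
    (P : β → γ → Prop) [∀ b c, Decidable (P b c)] :
    (univ.filter (fun p : β × γ => P p.1 p.2)).card = ∑ c, (univ.filter (fun b => P b c)).card := by
  rw [Finset.card_filter, Fintype.sum_prod_type, Finset.sum_comm]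
  apply Finset.sum_congr rfl
  intro c _
  rw [Finset.card_filter]

/-- Number of order-value violations for the sample `f`. -/
def Vn (A : BMat n) (f : Fin r2 → Fin n) : ℕ :=
  ∑ x, ∑ y, (univ.filter (fun c => Viol A f x y c)).card

/-- Number of copies of `I_2`, as an iterated sum. -/
def Nn (A : BMat n) : ℕ :=
  ∑ i, ∑ j, ∑ c, ∑ d, if Cp A i j c d then 1 else 0

theorem Nn_eq (A : BMat n) : Nn A = numCopies patI2 A := by
  unfold numCopies copySet Nn
  simp only [cp_iff]
  rw [Finset.card_filter, Fintype.sum_prod_type]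
  apply Finset.sum_congr rfl
  intro i _
  rw [Fintype.sum_prod_type]
  apply Finset.sum_congr rfl
  intro j _
  rw [Fintype.sum_prod_type]

/-! ### Sums over the pivot sample `g` -/

/-- Entries explained by a violation with a pivot in the second slot. -/
theorem sum_V1 (A : BMat n) (f : Fin r2 → Fin n) :
    (∑ g : Fin r1 → Fin n,
      (univ.filter (fun p : Fin n × Fin n => ∃ k, Viol A f p.1 (g k) p.2)).card) * n
      ≤ r1 * (n ^ r1 * Vn A f) := by
  set φ : Fin n → ℕ := fun y => ∑ i, (univ.filter (fun c => Viol A f i y c)).card with hφ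
  have h1 : ∀ g : Fin r1 → Fin n,
      (univ.filter (fun p : Fin n × Fin n => ∃ k, Viol A f p.1 (g k) p.2)).card ≤ ∑ k, φ (g k) := by
    intro g
    have hsub : (univ.filter (fun p : Fin n × Fin n => ∃ k, Viol A f p.1 (g k) p.2)) ⊆
        (univ : Finset (Fin r1)).biUnion
          (fun k => univ.filter (fun p : Fin n × Fin n => Viol A f p.1 (g k) p.2)) := by
      intro p hp
      rw [mem_filter] at hp
      obtain ⟨-, k, hk⟩ := hp
      rw [Finset.mem_biUnion]
      exact ⟨k, mem_univ _, by rw [mem_filter]; exact ⟨mem_univ _, hk⟩⟩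
    calc _ ≤ _ := Finset.card_le_card hsub
      _ ≤ ∑ k, (univ.filter (fun p : Fin n × Fin n => Viol A f p.1 (g k) p.2)).card :=
        Finset.card_biUnion_le
      _ = ∑ k, φ (g k) := by
        apply Finset.sum_congr rfl
        intro k _
        rw [hφ]
        exact card_prod_filter (fun (i : Fin n) (c : Fin n) => Viol A f i (g k) c)
  have h2 : ∀ k : Fin r1, (∑ g : Fin r1 → Fin n, φ (g k)) * n = n ^ r1 * ∑ a, φ a := by
    intro k
    have := sum_coord r1 k φ
    rwa [Fintype.card_fin] at this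
  have h3 : ∑ a, φ a = Vn A f := by
    unfold Vn
    rw [hφ, Finset.sum_comm]
  calc (∑ g : Fin r1 → Fin n,
      (univ.filter (fun p : Fin n × Fin n => ∃ k, Viol A f p.1 (g k) p.2)).card) * n
      ≤ (∑ g : Fin r1 → Fin n, ∑ k, φ (g k)) * n :=
        Nat.mul_le_mul_right _ (Finset.sum_le_sum (fun g _ => h1 g))
    _ = ∑ k : Fin r1, (∑ g : Fin r1 → Fin n, φ (g k)) * n := by
        rw [Finset.sum_comm, Finset.sum_mul]
    _ = ∑ k : Fin r1, n ^ r1 * Vn A f := by
        apply Finset.sum_congr rfl
        intro k _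
        rw [h2 k, h3]
    _ = r1 * (n ^ r1 * Vn A f) := by simp

/-- Entries explained by a violation with a pivot in the first slot. -/
theorem sum_V2 (A : BMat n) (f : Fin r2 → Fin n) :
    (∑ g : Fin r1 → Fin n,
      (univ.filter (fun p : Fin n × Fin n => ∃ k, Viol A f (g k) p.1 p.2)).card) * n
      ≤ r1 * (n ^ r1 * Vn A f) := by
  set φ : Fin n → ℕ := fun x => ∑ i, (univ.filter (fun c => Viol A f x i c)).card with hφ
  have h1 : ∀ g : Fin r1 → Fin n,
      (univ.filter (fun p : Fin n × Fin n => ∃ k, Viol A f (g k) p.1 p.2)).card ≤ ∑ k, φ (g k) := by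
    intro g
    have hsub : (univ.filter (fun p : Fin n × Fin n => ∃ k, Viol A f (g k) p.1 p.2)) ⊆
        (univ : Finset (Fin r1)).biUnion
          (fun k => univ.filter (fun p : Fin n × Fin n => Viol A f (g k) p.1 p.2)) := by
      intro p hp
      rw [mem_filter] at hp
      obtain ⟨-, k, hk⟩ := hp
      rw [Finset.mem_biUnion]
      exact ⟨k, mem_univ _, by rw [mem_filter]; exact ⟨mem_univ _, hk⟩⟩
    calc _ ≤ _ := Finset.card_le_card hsub
      _ ≤ ∑ k, (univ.filter (fun p : Fin n × Fin n => Viol A f (g k) p.1 p.2)).card :=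
        Finset.card_biUnion_le
      _ = ∑ k, φ (g k) := by
        apply Finset.sum_congr rfl
        intro k _
        rw [hφ]
        exact card_prod_filter (fun (i : Fin n) (c : Fin n) => Viol A f (g k) i c)
  have h2 : ∀ k : Fin r1, (∑ g : Fin r1 → Fin n, φ (g k)) * n = n ^ r1 * ∑ a, φ a := by
    intro k
    have := sum_coord r1 k φ
    rwa [Fintype.card_fin] at this
  have h3 : ∑ a, φ a = Vn A f := by
    unfold Vn
    rw [hφ]
  calc (∑ g : Fin r1 → Fin n,
      (univ.filter (fun p : Fin n × Fin n => ∃ k, Viol A f (g k) p.1 p.2)).card) * n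
      ≤ (∑ g : Fin r1 → Fin n, ∑ k, φ (g k)) * n :=
        Nat.mul_le_mul_right _ (Finset.sum_le_sum (fun g _ => h1 g))
    _ = ∑ k : Fin r1, (∑ g : Fin r1 → Fin n, φ (g k)) * n := by
        rw [Finset.sum_comm, Finset.sum_mul]
    _ = ∑ k : Fin r1, n ^ r1 * Vn A f := by
        apply Finset.sum_congr rfl
        intro k _
        rw [h2 k, h3]
    _ = r1 * (n ^ r1 * Vn A f) := by simp

/-- Unwitnessed ones. -/
theorem sum_Unw (A : BMat n) (f : Fin r2 → Fin n) :
    (r1 + 1) * ∑ g : Fin r1 → Fin n,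
      (univ.filter (fun p : Fin n × Fin n => Unw A f g p.1 p.2)).card ≤ n * n ^ (r1 + 1) := by
  have h1 : ∀ c : Fin n, (r1 + 1) * ∑ g : Fin r1 → Fin n,
      (univ.filter (fun i => Unw A f g i c)).card ≤ n ^ (r1 + 1) := by
    intro c
    have hasym : ∀ a b : Fin n, (b ≠ a ∧ Above A f b a c) → ¬ (a ≠ b ∧ Above A f a b c) := by
      rintro a b ⟨-, h⟩ ⟨-, h'⟩
      exact above_asymm h h'
    have := exch_max r1 (fun a : Fin n => A a c = true)
      (fun a b : Fin n => b ≠ a ∧ Above A f b a c) hasym
    rw [Fintype.card_fin] at this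
    refine le_trans (le_of_eq ?_) this
    congr 1
    apply Finset.sum_congr rfl
    intro g _
    congr 1
    apply Finset.filter_congr
    intro i _
    unfold Unw
    constructor
    · rintro ⟨h1, h2⟩
      refine ⟨h1, fun l hl => ?_⟩
      have hne : g l ≠ i := by
        intro he
        have := h2 l (Or.inl he)
        rw [hl] at this
        exact Bool.noConfusion this
      have hna : ¬ Above A f i (g l) c := by
        intro ha
        have := h2 l (Or.inr ha)
        rw [hl] at this
        exact Bool.noConfusion this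
      exact ⟨hne, above_total c (Ne.symm hne) hna⟩
    · rintro ⟨h1, h2⟩
      refine ⟨h1, fun k hk => ?_⟩
      by_contra hcon
      have hO : A (g k) c = true := by simpa using hcon
      obtain ⟨hne, hab⟩ := h2 k hO
      rcases hk with hk | hk
      · exact hne hk
      · exact above_asymm hab hk
  have h2 : ∀ g : Fin r1 → Fin n,
      (univ.filter (fun p : Fin n × Fin n => Unw A f g p.1 p.2)).card =
        ∑ c, (univ.filter (fun i => Unw A f g i c)).card := by
    intro g
    exact card_prod_filter' (fun (i : Fin n) (c : Fin n) => Unw A f g i c)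
  calc (r1 + 1) * ∑ g : Fin r1 → Fin n,
      (univ.filter (fun p : Fin n × Fin n => Unw A f g p.1 p.2)).card
      = (r1 + 1) * ∑ g : Fin r1 → Fin n, ∑ c, (univ.filter (fun i => Unw A f g i c)).card := by
        rw [Finset.sum_congr rfl (fun g _ => h2 g)]
    _ = ∑ c : Fin n, (r1 + 1) * ∑ g : Fin r1 → Fin n,
          (univ.filter (fun i => Unw A f g i c)).card := by
        rw [Finset.sum_comm, Finset.mul_sum]
    _ ≤ ∑ c : Fin n, n ^ (r1 + 1) := Finset.sum_le_sum (fun c _ => h1 c)
    _ = n * n ^ (r1 + 1) := by simp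

/-- Bad rows. -/
theorem sum_Bad (A : BMat n) (f : Fin r2 → Fin n) :
    (∑ g : Fin r1 → Fin n, (univ.filter (fun x => Bad A f g x)).card) * n
      ≤ r1 * (n ^ r1 * (2 * (GamSet A f).card)) := by
  set φ : Fin n → ℕ := fun y => (univ.filter (fun x => GamU A f x y)).card with hφ
  have h1 : ∀ g : Fin r1 → Fin n,
      (univ.filter (fun x => Bad A f g x)).card ≤ ∑ k, φ (g k) := by
    intro g
    have hsub : (univ.filter (fun x => Bad A f g x)) ⊆
        (univ : Finset (Fin r1)).biUnion (fun k => univ.filter (fun x => GamU A f x (g k))) := by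
      intro x hx
      rw [mem_filter] at hx
      obtain ⟨-, k, hk⟩ := hx
      rw [Finset.mem_biUnion]
      exact ⟨k, mem_univ _, by rw [mem_filter]; exact ⟨mem_univ _, hk⟩⟩
    calc _ ≤ _ := Finset.card_le_card hsub
      _ ≤ ∑ k, (univ.filter (fun x => GamU A f x (g k))).card := Finset.card_biUnion_le
  have h2 : ∀ k : Fin r1, (∑ g : Fin r1 → Fin n, φ (g k)) * n = n ^ r1 * ∑ a, φ a := by
    intro k
    have := sum_coord r1 k φ
    rwa [Fintype.card_fin] at this
  have h3 : ∑ a, φ a ≤ 2 * (GamSet A f).card := by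
    have e1 : ∑ a, φ a = (univ.filter (fun p : Fin n × Fin n => GamU A f p.1 p.2)).card := by
      rw [hφ]
      exact (card_prod_filter' (fun (x : Fin n) (y : Fin n) => GamU A f x y)).symm
    have hsub : (univ.filter (fun p : Fin n × Fin n => GamU A f p.1 p.2)) ⊆
        GamSet A f ∪ (GamSet A f).image Prod.swap := by
      intro p hp
      rw [mem_filter] at hp
      rw [mem_union]
      rcases hp.2 with h | h
      · left
        unfold GamSet
        rw [mem_filter]
        exact ⟨mem_univ _, h⟩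
      · right
        rw [mem_image]
        refine ⟨(p.2, p.1), ?_, rfl⟩
        unfold GamSet
        rw [mem_filter]
        exact ⟨mem_univ _, h⟩
    rw [e1]
    calc _ ≤ _ := Finset.card_le_card hsub
      _ ≤ (GamSet A f).card + ((GamSet A f).image Prod.swap).card := Finset.card_union_le _ _
      _ ≤ (GamSet A f).card + (GamSet A f).card := Nat.add_le_add_left Finset.card_image_le _
      _ = 2 * (GamSet A f).card := by ring
  calc (∑ g : Fin r1 → Fin n, (univ.filter (fun x => Bad A f g x)).card) * n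
      ≤ (∑ g : Fin r1 → Fin n, ∑ k, φ (g k)) * n :=
        Nat.mul_le_mul_right _ (Finset.sum_le_sum (fun g _ => h1 g))
    _ = ∑ k : Fin r1, (∑ g : Fin r1 → Fin n, φ (g k)) * n := by
        rw [Finset.sum_comm, Finset.sum_mul]
    _ = ∑ k : Fin r1, n ^ r1 * ∑ a, φ a := by
        apply Finset.sum_congr rfl
        intro k _
        rw [h2 k]
    _ ≤ ∑ k : Fin r1, n ^ r1 * (2 * (GamSet A f).card) :=
        Finset.sum_le_sum (fun k _ => Nat.mul_le_mul_left _ h3)
    _ = r1 * (n ^ r1 * (2 * (GamSet A f).card)) := by simp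

/-! ### Sums over the column sample `f` -/

theorem sum4_comm {α β γ δ : Type*} [Fintype α] [Fintype β] [Fintype γ] [Fintype δ]
    (F : α → β → γ → δ → ℕ) :
    ∑ a, ∑ b, ∑ c, ∑ d, F a b c d = ∑ c, ∑ d, ∑ a, ∑ b, F a b c d := by
  calc ∑ a, ∑ b, ∑ c, ∑ d, F a b c d
      = ∑ a, ∑ c, ∑ b, ∑ d, F a b c d :=
        Finset.sum_congr rfl (fun a _ => Finset.sum_comm)
    _ = ∑ c, ∑ a, ∑ b, ∑ d, F a b c d := Finset.sum_comm
    _ = ∑ c, ∑ a, ∑ d, ∑ b, F a b c d :=
        Finset.sum_congr rfl (fun c _ => Finset.sum_congr rfl (fun a _ => Finset.sum_comm))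
    _ = ∑ c, ∑ d, ∑ a, ∑ b, F a b c d :=
        Finset.sum_congr rfl (fun c _ => Finset.sum_comm)

/-- Upper bound for the number of sampled-copy pairs. -/
def GG (A : BMat n) (f : Fin r2 → Fin n) : ℕ :=
  ∑ l, ∑ l', ∑ x, ∑ y, if Cp A x y (f l) (f l') then 1 else 0

theorem Gam_le (A : BMat n) (f : Fin r2 → Fin n) : (GamSet A f).card ≤ GG A f := by
  have hsub : GamSet A f ⊆ (univ : Finset (Fin r2 × Fin r2)).biUnion
      (fun q => univ.filter (fun p : Fin n × Fin n => Cp A p.1 p.2 (f q.1) (f q.2))) := by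
    intro p hp
    unfold GamSet at hp
    rw [mem_filter] at hp
    obtain ⟨-, l, l', h⟩ := hp
    rw [Finset.mem_biUnion]
    exact ⟨(l, l'), mem_univ _, by rw [mem_filter]; exact ⟨mem_univ _, h⟩⟩
  calc _ ≤ _ := Finset.card_le_card hsub
    _ ≤ ∑ q : Fin r2 × Fin r2,
        (univ.filter (fun p : Fin n × Fin n => Cp A p.1 p.2 (f q.1) (f q.2))).card :=
      Finset.card_biUnion_le
    _ = GG A f := by
      unfold GG
      rw [Fintype.sum_prod_type]
      apply Finset.sum_congr rfl
      intro l _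
      apply Finset.sum_congr rfl
      intro l' _
      rw [Finset.card_filter, Fintype.sum_prod_type]

theorem sum_GG (A : BMat n) :
    (∑ f : Fin r2 → Fin n, GG A f) * n ^ 2 ≤ r2 * (r2 * (n ^ r2 * Nn A)) := by
  set ψ : Fin n → Fin n → ℕ := fun c d => ∑ x, ∑ y, if Cp A x y c d then 1 else 0 with hψ
  have hN : ∑ c, ∑ d, ψ c d = Nn A := by
    unfold Nn
    rw [hψ]
    exact (sum4_comm (fun (i j c d : Fin n) => if Cp A i j c d then 1 else 0)).symm
  have h1 : ∀ l l' : Fin r2, (∑ f : Fin r2 → Fin n, ψ (f l) (f l')) * n ^ 2 ≤ n ^ r2 * Nn A := by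
    intro l l'
    by_cases hll : l = l'
    · subst hll
      have hz : ∀ f : Fin r2 → Fin n, ψ (f l) (f l) = 0 := by
        intro f
        rw [hψ]
        apply Finset.sum_eq_zero
        intro x _
        apply Finset.sum_eq_zero
        intro y _
        rw [if_neg]
        intro h
        exact lt_irrefl _ h.2.1
      rw [Finset.sum_eq_zero (fun f _ => hz f)]
      simp
    · have := sum_two_coord r2 l l' hll ψ
      rw [Fintype.card_fin, hN] at this
      exact le_of_eq this
  calc (∑ f : Fin r2 → Fin n, GG A f) * n ^ 2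
      = ∑ l : Fin r2, ∑ l' : Fin r2, (∑ f : Fin r2 → Fin n, ψ (f l) (f l')) * n ^ 2 := by
        unfold GG
        rw [Finset.sum_comm, Finset.sum_mul]
        apply Finset.sum_congr rfl
        intro l _
        rw [Finset.sum_comm, Finset.sum_mul]
    _ ≤ ∑ l : Fin r2, ∑ l' : Fin r2, n ^ r2 * Nn A :=
        Finset.sum_le_sum (fun l _ => Finset.sum_le_sum (fun l' _ => h1 l l'))
    _ = r2 * (r2 * (n ^ r2 * Nn A)) := by simp

/-- Violations on pairs `x < y` (tails). -/
def VL (A : BMat n) (f : Fin r2 → Fin n) : ℕ :=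
  ∑ x, ∑ y, if x < y then (univ.filter (fun c => Viol A f x y c)).card else 0

/-- Upper bound for the violations on pairs `y < x` (copies with a sampled right column). -/
def VG (A : BMat n) (f : Fin r2 → Fin n) : ℕ :=
  ∑ l, ∑ i, ∑ j, ∑ c, if Cp A i j c (f l) then 1 else 0

theorem Vn_le (A : BMat n) (f : Fin r2 → Fin n) : Vn A f ≤ VL A f + VG A f := by
  have h1 : ∀ x y : Fin n, (univ.filter (fun c => Viol A f x y c)).card ≤
      (if x < y then (univ.filter (fun c => Viol A f x y c)).card else 0) +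
        ∑ l, ∑ c, if Cp A y x c (f l) then 1 else 0 := by
    intro x y
    by_cases hxy : x < y
    · rw [if_pos hxy]
      exact Nat.le_add_right _ _
    · rw [if_neg hxy, zero_add]
      have hsub : (univ.filter (fun c => Viol A f x y c)) ⊆
          (univ : Finset (Fin r2)).biUnion (fun l => univ.filter (fun c => Cp A y x c (f l))) := by
        intro c hc
        rw [mem_filter] at hc
        obtain ⟨-, hab, hx, hy⟩ := hc
        have hne : x ≠ y := above_ne hab
        have hyx : y < x := lt_of_le_of_ne (not_lt.mp hxy) (Ne.symm hne)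
        rw [above_of_gt hyx] at hab
        obtain ⟨l, hl1, hl2, hl3⟩ := hab
        have hcl : c ≠ f l := by
          intro he
          rw [← he, hy] at hl2
          exact Bool.noConfusion hl2
        rw [Finset.mem_biUnion]
        refine ⟨l, mem_univ _, ?_⟩
        rw [mem_filter]
        exact ⟨mem_univ _, hyx, lt_of_le_of_ne hl1 hcl, hy, hl2, hx, hl3⟩
      calc _ ≤ _ := Finset.card_le_card hsub
        _ ≤ ∑ l, (univ.filter (fun c => Cp A y x c (f l))).card := Finset.card_biUnion_le
        _ = ∑ l, ∑ c, if Cp A y x c (f l) then 1 else 0 := by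
          apply Finset.sum_congr rfl
          intro l _
          rw [Finset.card_filter]
  have h2 : ∑ x : Fin n, ∑ y : Fin n, ∑ l : Fin r2, ∑ c : Fin n,
      (if Cp A y x c (f l) then 1 else 0) = VG A f := by
    unfold VG
    calc ∑ x : Fin n, ∑ y : Fin n, ∑ l : Fin r2, ∑ c : Fin n, (if Cp A y x c (f l) then 1 else 0)
        = ∑ x : Fin n, ∑ l : Fin r2, ∑ y : Fin n, ∑ c : Fin n,
            (if Cp A y x c (f l) then 1 else 0) :=
          Finset.sum_congr rfl (fun x _ => Finset.sum_comm)
      _ = ∑ l : Fin r2, ∑ x : Fin n, ∑ y : Fin n, ∑ c : Fin n,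
            (if Cp A y x c (f l) then 1 else 0) := Finset.sum_comm
      _ = ∑ l : Fin r2, ∑ y : Fin n, ∑ x : Fin n, ∑ c : Fin n,
            (if Cp A y x c (f l) then 1 else 0) :=
          Finset.sum_congr rfl (fun l _ => Finset.sum_comm)
  unfold Vn VL
  rw [← h2, ← Finset.sum_add_distrib]
  apply Finset.sum_le_sum
  intro x _
  rw [← Finset.sum_add_distrib]
  apply Finset.sum_le_sum
  intro y _
  exact h1 x y

theorem sum_VG (A : BMat n) :
    (∑ f : Fin r2 → Fin n, VG A f) * n = r2 * (n ^ r2 * Nn A) := by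
  set φ : Fin n → ℕ := fun d => ∑ i, ∑ j, ∑ c, if Cp A i j c d then 1 else 0 with hφ
  have hN : ∑ d, φ d = Nn A := by
    unfold Nn
    rw [hφ]
    calc ∑ d : Fin n, ∑ i : Fin n, ∑ j : Fin n, ∑ c : Fin n, (if Cp A i j c d then 1 else 0)
        = ∑ i : Fin n, ∑ d : Fin n, ∑ j : Fin n, ∑ c : Fin n, (if Cp A i j c d then 1 else 0) :=
          Finset.sum_comm
      _ = ∑ i : Fin n, ∑ j : Fin n, ∑ d : Fin n, ∑ c : Fin n, (if Cp A i j c d then 1 else 0) :=
          Finset.sum_congr rfl (fun i _ => Finset.sum_comm)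
      _ = ∑ i : Fin n, ∑ j : Fin n, ∑ c : Fin n, ∑ d : Fin n, (if Cp A i j c d then 1 else 0) :=
          Finset.sum_congr rfl (fun i _ => Finset.sum_congr rfl (fun j _ => Finset.sum_comm))
  have h2 : ∀ l : Fin r2, (∑ f : Fin r2 → Fin n, φ (f l)) * n = n ^ r2 * Nn A := by
    intro l
    have := sum_coord r2 l φ
    rwa [Fintype.card_fin, hN] at this
  calc (∑ f : Fin r2 → Fin n, VG A f) * n
      = ∑ l : Fin r2, (∑ f : Fin r2 → Fin n, φ (f l)) * n := by
        unfold VG
        rw [Finset.sum_comm, Finset.sum_mul]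
    _ = ∑ l : Fin r2, n ^ r2 * Nn A := Finset.sum_congr rfl (fun l _ => h2 l)
    _ = r2 * (n ^ r2 * Nn A) := by simp

theorem card_lt_pairs (n : ℕ) :
    2 * (univ.filter (fun p : Fin n × Fin n => p.1 < p.2)).card ≤ n * n := by
  have h1 : (univ.filter (fun p : Fin n × Fin n => p.2 < p.1)).card =
      (univ.filter (fun p : Fin n × Fin n => p.1 < p.2)).card := by
    apply Finset.card_bij (fun p _ => (p.2, p.1))
    · intro p hp
      rw [mem_filter] at hp ⊢
      exact ⟨mem_univ _, hp.2⟩
    · intro p _ q _ h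
      rw [Prod.mk.injEq] at h
      exact Prod.ext h.2 h.1
    · intro q hq
      rw [mem_filter] at hq
      exact ⟨(q.2, q.1), by rw [mem_filter]; exact ⟨mem_univ _, hq.2⟩, rfl⟩
  have h2 : Disjoint (univ.filter (fun p : Fin n × Fin n => p.1 < p.2))
      (univ.filter (fun p : Fin n × Fin n => p.2 < p.1)) := by
    rw [Finset.disjoint_left]
    intro p hp hq
    rw [mem_filter] at hp hq
    exact lt_asymm hp.2 hq.2
  have h3 := Finset.card_union_of_disjoint h2
  have h4 : ((univ.filter (fun p : Fin n × Fin n => p.1 < p.2)) ∪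
      (univ.filter (fun p : Fin n × Fin n => p.2 < p.1))).card ≤ n * n := by
    calc _ ≤ (univ : Finset (Fin n × Fin n)).card := Finset.card_le_card (Finset.subset_univ _)
      _ = n * n := by simp
  omega

theorem sum_VL (A : BMat n) :
    2 * ((r2 + 1) * ∑ f : Fin r2 → Fin n, VL A f) ≤ n * n * n ^ (r2 + 1) := by
  have h1 : ∀ x y : Fin n, x < y → (r2 + 1) * ∑ f : Fin r2 → Fin n,
      (univ.filter (fun c => Viol A f x y c)).card ≤ n ^ (r2 + 1) := by
    intro x y hxy
    have hasym : ∀ a b : Fin n, b < a → ¬ a < b := fun a b h h' => lt_asymm h h'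
    have := exch_max r2 (fun c : Fin n => A x c = false ∧ A y c = true)
      (fun c u : Fin n => u < c) hasym
    rw [Fintype.card_fin] at this
    refine le_trans (le_of_eq ?_) this
    congr 1
    apply Finset.sum_congr rfl
    intro f _
    congr 1
    apply Finset.filter_congr
    intro c _
    unfold Viol
    rw [above_of_lt hxy]
    unfold Wit
    constructor
    · rintro ⟨h1, h2, h3⟩
      refine ⟨⟨h2, h3⟩, fun l hl => ?_⟩
      by_contra hcon
      exact h1 ⟨l, not_lt.mp hcon, hl.1, hl.2⟩
    · rintro ⟨⟨h2, h3⟩, h1⟩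
      refine ⟨?_, h2, h3⟩
      rintro ⟨l, hl1, hl2, hl3⟩
      exact absurd (h1 l ⟨hl2, hl3⟩) (not_lt.mpr hl1)
  have h2 : (r2 + 1) * ∑ f : Fin r2 → Fin n, VL A f =
      ∑ x : Fin n, ∑ y : Fin n, if x < y then
        (r2 + 1) * ∑ f : Fin r2 → Fin n, (univ.filter (fun c => Viol A f x y c)).card else 0 := by
    unfold VL
    rw [Finset.sum_comm, Finset.mul_sum]
    apply Finset.sum_congr rfl
    intro x _
    rw [Finset.sum_comm, Finset.mul_sum]
    apply Finset.sum_congr rfl
    intro y _
    by_cases hxy : x < y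
    · simp only [if_pos hxy]
    · simp only [if_neg hxy]
      simp
  have h3 : ∑ x : Fin n, ∑ y : Fin n, (if x < y then
      (r2 + 1) * ∑ f : Fin r2 → Fin n, (univ.filter (fun c => Viol A f x y c)).card else 0) ≤
      ∑ x : Fin n, ∑ y : Fin n, if x < y then n ^ (r2 + 1) else 0 := by
    apply Finset.sum_le_sum
    intro x _
    apply Finset.sum_le_sum
    intro y _
    by_cases hxy : x < y
    · simp only [if_pos hxy]
      exact h1 x y hxy
    · simp only [if_neg hxy]
      exact le_refl _
  have h4 : ∑ x : Fin n, ∑ y : Fin n, (if x < y then n ^ (r2 + 1) else 0) =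
      (univ.filter (fun p : Fin n × Fin n => p.1 < p.2)).card * n ^ (r2 + 1) := by
    rw [Finset.card_filter, Fintype.sum_prod_type, Finset.sum_mul]
    apply Finset.sum_congr rfl
    intro x _
    rw [Finset.sum_mul]
    apply Finset.sum_congr rfl
    intro y _
    by_cases hxy : x < y
    · simp [hxy]
    · simp [hxy]
  have h5 := card_lt_pairs n
  rw [h2]
  calc 2 * ∑ x : Fin n, ∑ y : Fin n, (if x < y then
        (r2 + 1) * ∑ f : Fin r2 → Fin n, (univ.filter (fun c => Viol A f x y c)).card else 0)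
      ≤ 2 * ((univ.filter (fun p : Fin n × Fin n => p.1 < p.2)).card * n ^ (r2 + 1)) := by
        rw [← h4]
        exact Nat.mul_le_mul_left _ h3
    _ = (2 * (univ.filter (fun p : Fin n × Fin n => p.1 < p.2)).card) * n ^ (r2 + 1) := by ring
    _ ≤ n * n * n ^ (r2 + 1) := Nat.mul_le_mul_right _ h5

end Vale.Agent.Lib.P037.helper17
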