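import Mathlib
import Vale.Agent.Lib.P037.Defs
import Vale.Agent.Lib.P037.helper17.Avg

/-!
Assembly of the polynomial removal bound for the pattern `I_2`.
-/

namespace Vale.Agent.Lib.P037.helper17

open Finset Vale.Agent.Lib.P037

variable {n r1 r2 : ℕ}

theorem err_le (A : BMat n) (f : Fin r2 → Fin n) (g : Fin r1 → Fin n) :
    (univ.filter (fun p : Fin n × Fin n => A p.1 p.2 ≠ Bm A f g p.1 p.2)).card ≤
      (univ.filter (fun p : Fin n × Fin n => ∃ k, Viol A f p.1 (g k) p.2)).card +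
      (univ.filter (fun p : Fin n × Fin n => ∃ k, Viol A f (g k) p.1 p.2)).card +
      (univ.filter (fun p : Fin n × Fin n => Unw A f g p.1 p.2)).card := by
  have hsub : (univ.filter (fun p : Fin n × Fin n => A p.1 p.2 ≠ Bm A f g p.1 p.2)) ⊆
      (univ.filter (fun p : Fin n × Fin n => ∃ k, Viol A f p.1 (g k) p.2)) ∪
      (univ.filter (fun p : Fin n × Fin n => ∃ k, Viol A f (g k) p.1 p.2)) ∪
      (univ.filter (fun p : Fin n × Fin n => Unw A f g p.1 p.2)) := by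
    intro p hp
    rw [mem_filter] at hp
    simp only [mem_union, mem_filter, mem_univ, true_and]
    rcases diff_Bm hp.2 with h | h | h
    · exact Or.inl (Or.inl h)
    · exact Or.inl (Or.inr h)
    · exact Or.inr h
  calc _ ≤ _ := Finset.card_le_card hsub
    _ ≤ _ := (Finset.card_union_le _ _).trans (Nat.add_le_add_right (Finset.card_union_le _ _) _)

/-- Abstract arithmetic for the sum over pivot samples. -/
theorem arith1 (n a P V G s T SE SV1 SV2 SU SB SC D : ℝ)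
    (hn : 0 ≤ n) (ha : 0 ≤ a)
    (hD : D ≤ SE + n * SB + n * SC) (hE : SE ≤ SV1 + SV2 + SU)
    (h1 : SV1 * n ≤ a * (P * V)) (h2 : SV2 * n ≤ a * (P * V))
    (hU : (a + 1) * SU ≤ n * (P * n))
    (hB : SB * n ≤ a * (P * (2 * G))) (hC : SC ≤ P * (T ^ 2 * (2 * s))) :
    (a + 1) * (n * D) ≤ P * (2 * a * (a + 1) * V + n ^ 3 + 2 * a * (a + 1) * n * G
      + 2 * (a + 1) * n ^ 2 * T ^ 2 * s) := by
  have e0 := mul_le_mul_of_nonneg_left hD (by positivity : 0 ≤ (a + 1) * n)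
  have e1 := mul_le_mul_of_nonneg_left hE (by positivity : 0 ≤ (a + 1) * n)
  have e2 := mul_le_mul_of_nonneg_left h1 (by positivity : 0 ≤ (a + 1))
  have e3 := mul_le_mul_of_nonneg_left h2 (by positivity : 0 ≤ (a + 1))
  have e4 := mul_le_mul_of_nonneg_left hU hn
  have e5 := mul_le_mul_of_nonneg_left hB (by positivity : 0 ≤ (a + 1) * n)
  have e6 := mul_le_mul_of_nonneg_left hC (by positivity : 0 ≤ (a + 1) * n * n)
  nlinarith [e0, e1, e2, e3, e4, e5, e6]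

/-- The inequality obtained by averaging over the pivot sample, for a fixed column sample. -/
theorem per_f (A : BMat n) (hn : 0 < n) (ε : ℝ)
    (hfar : ∀ B : BMat n, IsFree patI2 B → ε * (n : ℝ) ^ 2 ≤ (hammingDist A B : ℝ))
    (r1 : ℕ) (f : Fin r2 → Fin n) :
    ((r1 : ℝ) + 1) * (ε * (n : ℝ) ^ 3) ≤ 2 * (r1 : ℝ) * ((r1 : ℝ) + 1) * (Vn A f : ℝ) + (n : ℝ) ^ 3
      + 2 * (r1 : ℝ) * ((r1 : ℝ) + 1) * (n : ℝ) * ((GamSet A f).card : ℝ)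
      + 2 * ((r1 : ℝ) + 1) * (n : ℝ) ^ 2 * (((r2 : ℝ) + 1) * ((r1 : ℝ) + 1)) ^ 2
          * (Nat.sqrt (GamSet A f).card : ℝ) := by
  have hnR : (0 : ℝ) < (n : ℝ) := by exact_mod_cast hn
  have hPpos : (0 : ℝ) < (n : ℝ) ^ r1 := by positivity
  have hDN : ∑ g : Fin r1 → Fin n, hammingDist A (Fz A f g) ≤
      (∑ g : Fin r1 → Fin n,
        (univ.filter (fun p : Fin n × Fin n => A p.1 p.2 ≠ Bm A f g p.1 p.2)).card)
      + n * (∑ g : Fin r1 → Fin n, (univ.filter (fun x => Bad A f g x)).card)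
      + n * (∑ g : Fin r1 → Fin n, (Cov A f g).card) := by
    calc ∑ g : Fin r1 → Fin n, hammingDist A (Fz A f g)
        ≤ ∑ g : Fin r1 → Fin n,
          ((univ.filter (fun p : Fin n × Fin n => A p.1 p.2 ≠ Bm A f g p.1 p.2)).card
            + n * (univ.filter (fun x => Bad A f g x)).card + n * (Cov A f g).card) :=
          Finset.sum_le_sum (fun g _ => dist_Fz A f g)
      _ = _ := by
          rw [Finset.sum_add_distrib, Finset.sum_add_distrib, Finset.mul_sum, Finset.mul_sum]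
  have hEN : (∑ g : Fin r1 → Fin n,
        (univ.filter (fun p : Fin n × Fin n => A p.1 p.2 ≠ Bm A f g p.1 p.2)).card) ≤
      (∑ g : Fin r1 → Fin n,
        (univ.filter (fun p : Fin n × Fin n => ∃ k, Viol A f p.1 (g k) p.2)).card)
      + (∑ g : Fin r1 → Fin n,
        (univ.filter (fun p : Fin n × Fin n => ∃ k, Viol A f (g k) p.1 p.2)).card)
      + (∑ g : Fin r1 → Fin n,
        (univ.filter (fun p : Fin n × Fin n => Unw A f g p.1 p.2)).card) := by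
    calc _ ≤ ∑ g : Fin r1 → Fin n,
          ((univ.filter (fun p : Fin n × Fin n => ∃ k, Viol A f p.1 (g k) p.2)).card
          + (univ.filter (fun p : Fin n × Fin n => ∃ k, Viol A f (g k) p.1 p.2)).card
          + (univ.filter (fun p : Fin n × Fin n => Unw A f g p.1 p.2)).card) :=
          Finset.sum_le_sum (fun g _ => err_le A f g)
      _ = _ := by rw [Finset.sum_add_distrib, Finset.sum_add_distrib]
  have hCN : (∑ g : Fin r1 → Fin n, (Cov A f g).card) ≤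
      n ^ r1 * (((r2 + 1) * (r1 + 1)) ^ 2 * (2 * Nat.sqrt (GamSet A f).card)) := by
    calc (∑ g : Fin r1 → Fin n, (Cov A f g).card)
        ≤ ∑ _g : Fin r1 → Fin n, (((r2 + 1) * (r1 + 1)) ^ 2 * (2 * Nat.sqrt (GamSet A f).card)) :=
          Finset.sum_le_sum (fun g _ => Cov_card A f g)
      _ = _ := by simp [Finset.card_univ]
  have h1N := sum_V1 (r1 := r1) A f
  have h2N := sum_V2 (r1 := r1) A f
  have hUN := sum_Unw (r1 := r1) A f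
  have hBN := sum_Bad (r1 := r1) A f
  have hfarS : (n : ℝ) ^ r1 * (ε * (n : ℝ) ^ 2) ≤
      ((∑ g : Fin r1 → Fin n, hammingDist A (Fz A f g) : ℕ) : ℝ) := by
    calc (n : ℝ) ^ r1 * (ε * (n : ℝ) ^ 2) = ∑ _g : Fin r1 → Fin n, ε * (n : ℝ) ^ 2 := by
          simp [Finset.card_univ]
      _ ≤ ∑ g : Fin r1 → Fin n, (hammingDist A (Fz A f g) : ℝ) :=
          Finset.sum_le_sum (fun g _ => hfar _ (Fz_free A f g))
      _ = _ := by push_cast; rfl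
  have hD : ((∑ g : Fin r1 → Fin n, hammingDist A (Fz A f g) : ℕ) : ℝ) ≤
      ((∑ g : Fin r1 → Fin n,
        (univ.filter (fun p : Fin n × Fin n => A p.1 p.2 ≠ Bm A f g p.1 p.2)).card : ℕ) : ℝ)
      + (n : ℝ) * ((∑ g : Fin r1 → Fin n, (univ.filter (fun x => Bad A f g x)).card : ℕ) : ℝ)
      + (n : ℝ) * ((∑ g : Fin r1 → Fin n, (Cov A f g).card : ℕ) : ℝ) := by
    exact_mod_cast hDN
  have hE : ((∑ g : Fin r1 → Fin n,
        (univ.filter (fun p : Fin n × Fin n => A p.1 p.2 ≠ Bm A f g p.1 p.2)).card : ℕ) : ℝ) ≤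
      ((∑ g : Fin r1 → Fin n,
        (univ.filter (fun p : Fin n × Fin n => ∃ k, Viol A f p.1 (g k) p.2)).card : ℕ) : ℝ)
      + ((∑ g : Fin r1 → Fin n,
        (univ.filter (fun p : Fin n × Fin n => ∃ k, Viol A f (g k) p.1 p.2)).card : ℕ) : ℝ)
      + ((∑ g : Fin r1 → Fin n,
        (univ.filter (fun p : Fin n × Fin n => Unw A f g p.1 p.2)).card : ℕ) : ℝ) := by
    exact_mod_cast hEN
  have h1 : ((∑ g : Fin r1 → Fin n,
        (univ.filter (fun p : Fin n × Fin n => ∃ k, Viol A f p.1 (g k) p.2)).card : ℕ) : ℝ)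
        * (n : ℝ) ≤ (r1 : ℝ) * ((n : ℝ) ^ r1 * (Vn A f : ℝ)) := by
    exact_mod_cast h1N
  have h2 : ((∑ g : Fin r1 → Fin n,
        (univ.filter (fun p : Fin n × Fin n => ∃ k, Viol A f (g k) p.1 p.2)).card : ℕ) : ℝ)
        * (n : ℝ) ≤ (r1 : ℝ) * ((n : ℝ) ^ r1 * (Vn A f : ℝ)) := by
    exact_mod_cast h2N
  have hU : ((r1 : ℝ) + 1) * ((∑ g : Fin r1 → Fin n,
        (univ.filter (fun p : Fin n × Fin n => Unw A f g p.1 p.2)).card : ℕ) : ℝ)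
        ≤ (n : ℝ) * ((n : ℝ) ^ r1 * (n : ℝ)) := by
    have : ((r1 : ℝ) + 1) * ((∑ g : Fin r1 → Fin n,
        (univ.filter (fun p : Fin n × Fin n => Unw A f g p.1 p.2)).card : ℕ) : ℝ)
        ≤ (n : ℝ) * (n : ℝ) ^ (r1 + 1) := by
      exact_mod_cast hUN
    rwa [pow_succ] at this
  have hB : ((∑ g : Fin r1 → Fin n, (univ.filter (fun x => Bad A f g x)).card : ℕ) : ℝ)
        * (n : ℝ) ≤ (r1 : ℝ) * ((n : ℝ) ^ r1 * (2 * ((GamSet A f).card : ℝ))) := by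
    exact_mod_cast hBN
  have hC : ((∑ g : Fin r1 → Fin n, (Cov A f g).card : ℕ) : ℝ) ≤
      (n : ℝ) ^ r1 * ((((r2 : ℝ) + 1) * ((r1 : ℝ) + 1)) ^ 2
        * (2 * (Nat.sqrt (GamSet A f).card : ℝ))) := by
    exact_mod_cast hCN
  have key := arith1 (n : ℝ) (r1 : ℝ) ((n : ℝ) ^ r1) (Vn A f : ℝ) ((GamSet A f).card : ℝ)
    (Nat.sqrt (GamSet A f).card : ℝ) (((r2 : ℝ) + 1) * ((r1 : ℝ) + 1)) _ _ _ _ _ _ _
    hnR.le (Nat.cast_nonneg _) hD hE h1 h2 hU hB hC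
  have h3 : ((r1 : ℝ) + 1) * ((n : ℝ) * ((n : ℝ) ^ r1 * (ε * (n : ℝ) ^ 2))) ≤
      ((r1 : ℝ) + 1) * ((n : ℝ) * ((∑ g : Fin r1 → Fin n, hammingDist A (Fz A f g) : ℕ) : ℝ)) := by
    apply mul_le_mul_of_nonneg_left _ (by positivity)
    exact mul_le_mul_of_nonneg_left hfarS hnR.le
  have h4 : (n : ℝ) ^ r1 * (((r1 : ℝ) + 1) * (ε * (n : ℝ) ^ 3)) ≤ (n : ℝ) ^ r1 *
      (2 * (r1 : ℝ) * ((r1 : ℝ) + 1) * (Vn A f : ℝ) + (n : ℝ) ^ 3
      + 2 * (r1 : ℝ) * ((r1 : ℝ) + 1) * (n : ℝ) * ((GamSet A f).card : ℝ)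
      + 2 * ((r1 : ℝ) + 1) * (n : ℝ) ^ 2 * (((r2 : ℝ) + 1) * ((r1 : ℝ) + 1)) ^ 2
          * (Nat.sqrt (GamSet A f).card : ℝ)) := by
    calc (n : ℝ) ^ r1 * (((r1 : ℝ) + 1) * (ε * (n : ℝ) ^ 3))
        = ((r1 : ℝ) + 1) * ((n : ℝ) * ((n : ℝ) ^ r1 * (ε * (n : ℝ) ^ 2))) := by ring
      _ ≤ _ := h3
      _ ≤ _ := key
  exact le_of_mul_le_mul_left h4 hPpos

/-- Abstract arithmetic for the sum over column samples. -/
theorem arith2 (n a b lam ε P sV sVL sVG sG N : ℝ) (hn : 0 < n) (hP : 0 < P) (ha : 0 ≤ a)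
    (hb : 0 ≤ b) (hlam : 0 < lam)
    (h0 : P * (lam * ((a + 1) * (ε * n ^ 3))) ≤ lam * (2 * a * (a + 1)) * sV + P * (lam * n ^ 3)
      + (lam * (2 * a * (a + 1) * n) + (a + 1) * n ^ 2 * ((b + 1) * (a + 1)) ^ 2) * sG
      + P * ((a + 1) * n ^ 2 * ((b + 1) * (a + 1)) ^ 2 * lam ^ 2))
    (h1 : sV ≤ sVL + sVG) (h2 : 2 * ((b + 1) * sVL) ≤ n * n * (P * n))
    (h3 : sVG * n = b * (P * N)) (h4 : sG * n ^ 2 ≤ b * (b * (P * N))) :
    ((b + 1) * (a + 1)) * lam * ε * n ^ 4 ≤ lam * n ^ 4 * (a * (a + 1) + (b + 1))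
      + 2 * lam * a * ((b + 1) * (a + 1)) * b * (1 + b) * N
      + n * ((b + 1) * (a + 1)) ^ 3 * b ^ 2 * N + ((b + 1) * (a + 1)) ^ 3 * n ^ 3 * lam ^ 2 := by
  have e1 := mul_le_mul_of_nonneg_left h0 (by positivity : 0 ≤ (b + 1) * n ^ 2)
  have e2 := mul_le_mul_of_nonneg_left h1
    (by positivity : 0 ≤ (b + 1) * n ^ 2 * (lam * (2 * a * (a + 1))))
  have e3 := mul_le_mul_of_nonneg_left h2 (by positivity : 0 ≤ lam * a * (a + 1) * n ^ 2)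
  have e4 : 2 * lam * a * (a + 1) * (b + 1) * n * (sVG * n)
      = 2 * lam * a * (a + 1) * (b + 1) * n * (b * (P * N)) := by rw [h3]
  have e5 := mul_le_mul_of_nonneg_left h4
    (by positivity : 0 ≤ (b + 1) * (lam * (2 * a * (a + 1) * n)
      + (a + 1) * n ^ 2 * ((b + 1) * (a + 1)) ^ 2))
  have key : (P * n) * (((b + 1) * (a + 1)) * lam * ε * n ^ 4) ≤ (P * n) *
      (lam * n ^ 4 * (a * (a + 1) + (b + 1))
      + 2 * lam * a * ((b + 1) * (a + 1)) * b * (1 + b) * N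
      + n * ((b + 1) * (a + 1)) ^ 3 * b ^ 2 * N + ((b + 1) * (a + 1)) ^ 3 * n ^ 3 * lam ^ 2) := by
    linarith [e1, e2, e3, e4, e5]
  exact le_of_mul_le_mul_left key (by positivity)

/-- The general inequality: every choice of the sample sizes `r1`, `r2` and of a positive real
`lam` gives a relation between the distance parameter and the number of copies. -/
theorem general (A : BMat n) (hn : 0 < n) (ε : ℝ)
    (hfar : ∀ B : BMat n, IsFree patI2 B → ε * (n : ℝ) ^ 2 ≤ (hammingDist A B : ℝ))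
    (r1 r2 : ℕ) (lam : ℝ) (hlam : 0 < lam) :
    (((r2 : ℝ) + 1) * ((r1 : ℝ) + 1)) * lam * ε * (n : ℝ) ^ 4 ≤
      lam * (n : ℝ) ^ 4 * ((r1 : ℝ) * ((r1 : ℝ) + 1) + ((r2 : ℝ) + 1))
      + 2 * lam * (r1 : ℝ) * (((r2 : ℝ) + 1) * ((r1 : ℝ) + 1)) * (r2 : ℝ) * (1 + (r2 : ℝ))
          * (numCopies patI2 A : ℝ)
      + (n : ℝ) * (((r2 : ℝ) + 1) * ((r1 : ℝ) + 1)) ^ 3 * (r2 : ℝ) ^ 2 * (numCopies patI2 A : ℝ)
      + (((r2 : ℝ) + 1) * ((r1 : ℝ) + 1)) ^ 3 * (n : ℝ) ^ 3 * lam ^ 2 := by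
  have hnR : (0 : ℝ) < (n : ℝ) := by exact_mod_cast hn
  have hPpos : (0 : ℝ) < (n : ℝ) ^ r2 := by positivity
  have hper : ∀ f : Fin r2 → Fin n,
      lam * (((r1 : ℝ) + 1) * (ε * (n : ℝ) ^ 3)) ≤
        lam * (2 * (r1 : ℝ) * ((r1 : ℝ) + 1)) * (Vn A f : ℝ) + lam * (n : ℝ) ^ 3
        + (lam * (2 * (r1 : ℝ) * ((r1 : ℝ) + 1) * (n : ℝ))
            + ((r1 : ℝ) + 1) * (n : ℝ) ^ 2 * (((r2 : ℝ) + 1) * ((r1 : ℝ) + 1)) ^ 2)
          * ((GamSet A f).card : ℝ)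
        + ((r1 : ℝ) + 1) * (n : ℝ) ^ 2 * (((r2 : ℝ) + 1) * ((r1 : ℝ) + 1)) ^ 2 * lam ^ 2 := by
    intro f
    have h := per_f A hn ε hfar r1 f
    have hs : ((Nat.sqrt (GamSet A f).card : ℕ) : ℝ) ^ 2 ≤ ((GamSet A f).card : ℝ) := by
      have := Nat.sqrt_le' (GamSet A f).card
      exact_mod_cast this
    have hs2 : 2 * ((Nat.sqrt (GamSet A f).card : ℕ) : ℝ) * lam ≤
        ((GamSet A f).card : ℝ) + lam ^ 2 := by
      nlinarith [sq_nonneg (((Nat.sqrt (GamSet A f).card : ℕ) : ℝ) - lam)]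
    have h5 := mul_le_mul_of_nonneg_left h hlam.le
    have h6 := mul_le_mul_of_nonneg_left hs2
      (by positivity : (0 : ℝ) ≤ ((r1 : ℝ) + 1) * (n : ℝ) ^ 2
        * (((r2 : ℝ) + 1) * ((r1 : ℝ) + 1)) ^ 2)
    linarith [h5, h6]
  have hS := Finset.sum_le_sum (fun f (_ : f ∈ (univ : Finset (Fin r2 → Fin n))) => hper f)
  rw [Finset.sum_add_distrib, Finset.sum_add_distrib, Finset.sum_add_distrib] at hS
  simp only [Finset.sum_const, Finset.card_univ, Fintype.card_pi, Finset.prod_const,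
    Fintype.card_fin, nsmul_eq_mul, Nat.cast_pow] at hS
  have hVN : ∑ f : Fin r2 → Fin n, Vn A f ≤
      (∑ f : Fin r2 → Fin n, VL A f) + (∑ f : Fin r2 → Fin n, VG A f) := by
    rw [← Finset.sum_add_distrib]
    exact Finset.sum_le_sum (fun f _ => Vn_le A f)
  have hGN : ∑ f : Fin r2 → Fin n, (GamSet A f).card ≤ ∑ f : Fin r2 → Fin n, GG A f :=
    Finset.sum_le_sum (fun f _ => Gam_le A f)
  have hVLN := sum_VL (r2 := r2) A
  have hVGN := sum_VG (r2 := r2) A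
  have hGGN := sum_GG (r2 := r2) A
  rw [Nn_eq] at hVGN hGGN
  have h1 : ((∑ f : Fin r2 → Fin n, Vn A f : ℕ) : ℝ) ≤
      ((∑ f : Fin r2 → Fin n, VL A f : ℕ) : ℝ) + ((∑ f : Fin r2 → Fin n, VG A f : ℕ) : ℝ) := by
    exact_mod_cast hVN
  have h2 : 2 * (((r2 : ℝ) + 1) * ((∑ f : Fin r2 → Fin n, VL A f : ℕ) : ℝ)) ≤
      (n : ℝ) * (n : ℝ) * ((n : ℝ) ^ r2 * (n : ℝ)) := by
    have : 2 * (((r2 : ℝ) + 1) * ((∑ f : Fin r2 → Fin n, VL A f : ℕ) : ℝ)) ≤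
        (n : ℝ) * (n : ℝ) * (n : ℝ) ^ (r2 + 1) := by
      exact_mod_cast hVLN
    rwa [pow_succ] at this
  have h3 : ((∑ f : Fin r2 → Fin n, VG A f : ℕ) : ℝ) * (n : ℝ) =
      (r2 : ℝ) * ((n : ℝ) ^ r2 * (numCopies patI2 A : ℝ)) := by
    exact_mod_cast hVGN
  have h4 : ((∑ f : Fin r2 → Fin n, (GamSet A f).card : ℕ) : ℝ) * (n : ℝ) ^ 2 ≤
      (r2 : ℝ) * ((r2 : ℝ) * ((n : ℝ) ^ r2 * (numCopies patI2 A : ℝ))) := by
    have h41 : ((∑ f : Fin r2 → Fin n, (GamSet A f).card : ℕ) : ℝ) ≤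
        ((∑ f : Fin r2 → Fin n, GG A f : ℕ) : ℝ) := by exact_mod_cast hGN
    have h42 : ((∑ f : Fin r2 → Fin n, GG A f : ℕ) : ℝ) * (n : ℝ) ^ 2 ≤
        (r2 : ℝ) * ((r2 : ℝ) * ((n : ℝ) ^ r2 * (numCopies patI2 A : ℝ))) := by
      exact_mod_cast hGGN
    have h43 := mul_le_mul_of_nonneg_right h41 (by positivity : (0 : ℝ) ≤ (n : ℝ) ^ 2)
    linarith
  have h0 : (n : ℝ) ^ r2 * (lam * (((r1 : ℝ) + 1) * (ε * (n : ℝ) ^ 3))) ≤
      lam * (2 * (r1 : ℝ) * ((r1 : ℝ) + 1)) * ((∑ f : Fin r2 → Fin n, Vn A f : ℕ) : ℝ)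
      + (n : ℝ) ^ r2 * (lam * (n : ℝ) ^ 3)
      + (lam * (2 * (r1 : ℝ) * ((r1 : ℝ) + 1) * (n : ℝ))
            + ((r1 : ℝ) + 1) * (n : ℝ) ^ 2 * (((r2 : ℝ) + 1) * ((r1 : ℝ) + 1)) ^ 2)
          * ((∑ f : Fin r2 → Fin n, (GamSet A f).card : ℕ) : ℝ)
      + (n : ℝ) ^ r2 * (((r1 : ℝ) + 1) * (n : ℝ) ^ 2
          * (((r2 : ℝ) + 1) * ((r1 : ℝ) + 1)) ^ 2 * lam ^ 2) := by
    push_cast
    rw [Finset.mul_sum, Finset.mul_sum]
    exact hS
  exact arith2 (n : ℝ) (r1 : ℝ) (r2 : ℝ) lam ε ((n : ℝ) ^ r2) _ _ _ _ (numCopies patI2 A : ℝ)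
    hnR hPpos (Nat.cast_nonneg _) (Nat.cast_nonneg _) hlam h0 h1 h2 h3 h4

/-- Final numerics: the choice of the free real parameter and the constants. -/
theorem arith3 (n a b e N : ℝ) (hn : 0 < n) (he : 0 < e) (he1 : e < 1) (hN : 0 ≤ N)
    (ha : 0 ≤ a) (hb : 0 ≤ b)
    (ha1 : 4 ≤ a * e) (ha2 : a * e ≤ 5) (hb1 : 4 * a ≤ b * e) (hb2 : b * e ^ 2 ≤ 21)
    (hgen : ∀ lam : ℝ, 0 < lam → ((b + 1) * (a + 1)) * lam * e * n ^ 4 ≤
      lam * n ^ 4 * (a * (a + 1) + (b + 1))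
      + 2 * lam * a * ((b + 1) * (a + 1)) * b * (1 + b) * N
      + n * ((b + 1) * (a + 1)) ^ 3 * b ^ 2 * N + ((b + 1) * (a + 1)) ^ 3 * n ^ 3 * lam ^ 2) :
    e ^ 18 * n ^ 4 ≤ 3 * 10 ^ 12 * N := by
  have hTpos : 0 < (b + 1) * (a + 1) := by positivity
  have hlam : 0 < e * n / (4 * ((b + 1) * (a + 1)) ^ 2) := by positivity
  have h := hgen (e * n / (4 * ((b + 1) * (a + 1)) ^ 2)) hlam
  have hl : e * n / (4 * ((b + 1) * (a + 1)) ^ 2) * (4 * ((b + 1) * (a + 1)) ^ 2) = e * n := by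
    field_simp
  generalize e * n / (4 * ((b + 1) * (a + 1)) ^ 2) = lam at h hl
  generalize hT : (b + 1) * (a + 1) = T at h hl hTpos
  have h' : 4 * T ^ 3 * e ^ 2 * n ^ 5 ≤ 4 * T ^ 2 * e * n ^ 5 * (a * (a + 1) + (b + 1))
      + 8 * T ^ 3 * e * n * a * b * (1 + b) * N + 16 * T ^ 7 * n * b ^ 2 * N
      + T ^ 3 * e ^ 2 * n ^ 5 := by
    have h16 := mul_le_mul_of_nonneg_left h (by positivity : 0 ≤ 16 * T ^ 4)
    have e1 : 16 * T ^ 4 * (T * lam * e * n ^ 4) = 4 * T ^ 3 * (lam * (4 * T ^ 2)) * e * n ^ 4 := by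
      ring
    have e2 : 16 * T ^ 4 * (lam * n ^ 4 * (a * (a + 1) + (b + 1))
        + 2 * lam * a * T * b * (1 + b) * N + n * T ^ 3 * b ^ 2 * N + T ^ 3 * n ^ 3 * lam ^ 2)
        = 4 * T ^ 2 * (lam * (4 * T ^ 2)) * n ^ 4 * (a * (a + 1) + (b + 1))
          + 8 * T ^ 3 * (lam * (4 * T ^ 2)) * a * b * (1 + b) * N + 16 * T ^ 7 * n * b ^ 2 * N
          + T ^ 3 * n ^ 3 * (lam * (4 * T ^ 2)) ^ 2 := by
      ring
    rw [e1, e2, hl] at h16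
    linarith
  have h'' : 3 * T * e ^ 2 * n ^ 4 ≤ 4 * e * n ^ 4 * (a * (a + 1) + (b + 1))
      + 8 * T * e * a * b * (1 + b) * N + 16 * T ^ 5 * b ^ 2 * N := by
    have : (n * T ^ 2) * (3 * T * e ^ 2 * n ^ 4) ≤ (n * T ^ 2) * (4 * e * n ^ 4 * (a * (a + 1) + (b + 1))
      + 8 * T * e * a * b * (1 + b) * N + 16 * T ^ 5 * b ^ 2 * N) := by linarith
    exact le_of_mul_le_mul_left this (by positivity)
  have hq1 : 4 * (a * (a + 1)) ≤ T * e := by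
    have : 4 * a ≤ (b + 1) * e := by linarith
    have := mul_le_mul_of_nonneg_right this (by positivity : 0 ≤ a + 1)
    rw [← hT]; linarith
  have hq2 : 4 * (b + 1) ≤ T * e := by
    have : 4 ≤ (a + 1) * e := by linarith
    have := mul_le_mul_of_nonneg_right this (by positivity : 0 ≤ b + 1)
    rw [← hT]; linarith
  have hq3 : 4 * e * n ^ 4 * (a * (a + 1) + (b + 1)) ≤ 2 * T * e ^ 2 * n ^ 4 := by
    have : 4 * (a * (a + 1) + (b + 1)) ≤ 2 * (T * e) := by linarith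
    have := mul_le_mul_of_nonneg_left this (by positivity : 0 ≤ e * n ^ 4)
    linarith
  have h3 : e ^ 2 * n ^ 4 ≤ (8 * e * a * b * (1 + b) + 16 * T ^ 4 * b ^ 2) * N := by
    have : T * (e ^ 2 * n ^ 4) ≤ T * ((8 * e * a * b * (1 + b) + 16 * T ^ 4 * b ^ 2) * N) := by
      linarith
    exact le_of_mul_le_mul_left this hTpos
  have hw : (b + 1) * e ^ 2 ≤ 22 := by nlinarith
  have hz : (a + 1) * e ≤ 6 := by linarith
  have hw0 : 0 ≤ (b + 1) * e ^ 2 := by positivity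
  have hz0 : 0 ≤ (a + 1) * e := by positivity
  have hv0 : 0 ≤ b * e ^ 2 := by positivity
  have hu0 : 0 ≤ a * e := by positivity
  have hwz : (b + 1) * e ^ 2 * ((a + 1) * e) ≤ 22 * 6 := mul_le_mul hw hz hz0 (by norm_num)
  have hwz4 : ((b + 1) * e ^ 2 * ((a + 1) * e)) ^ 4 ≤ (22 * 6) ^ 4 :=
    pow_le_pow_left₀ (by positivity) hwz 4
  have hv2 : (b * e ^ 2) ^ 2 ≤ 21 ^ 2 := pow_le_pow_left₀ hv0 hb2 2
  have hK2 : 16 * ((b + 1) * e ^ 2 * ((a + 1) * e)) ^ 4 * (b * e ^ 2) ^ 2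
      ≤ 16 * (22 * 6) ^ 4 * 21 ^ 2 := by
    have := mul_le_mul hwz4 hv2 (by positivity) (by norm_num)
    linarith
  have he12 : e ^ 12 ≤ 1 := pow_le_one₀ he.le he1.le
  have hK1 : 8 * e ^ 12 * (a * e) * (b * e ^ 2) * ((b + 1) * e ^ 2) ≤ 8 * 1 * 5 * 21 * 22 := by
    have i1 : e ^ 12 * (a * e) ≤ 1 * 5 := mul_le_mul he12 ha2 hu0 (by norm_num)
    have i2 : e ^ 12 * (a * e) * (b * e ^ 2) ≤ 1 * 5 * 21 := mul_le_mul i1 hb2 hv0 (by norm_num)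
    have i3 : e ^ 12 * (a * e) * (b * e ^ 2) * ((b + 1) * e ^ 2) ≤ 1 * 5 * 21 * 22 :=
      mul_le_mul i2 hw hw0 (by norm_num)
    linarith
  have hK : e ^ 16 * (8 * e * a * b * (1 + b) + 16 * T ^ 4 * b ^ 2) ≤ 3 * 10 ^ 12 := by
    have : e ^ 16 * (8 * e * a * b * (1 + b) + 16 * T ^ 4 * b ^ 2)
        = 8 * e ^ 12 * (a * e) * (b * e ^ 2) * ((b + 1) * e ^ 2)
          + 16 * ((b + 1) * e ^ 2 * ((a + 1) * e)) ^ 4 * (b * e ^ 2) ^ 2 := by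
      rw [← hT]; ring
    rw [this]
    norm_num at hK1 hK2 ⊢
    linarith
  calc e ^ 18 * n ^ 4 = e ^ 16 * (e ^ 2 * n ^ 4) := by ring
    _ ≤ e ^ 16 * ((8 * e * a * b * (1 + b) + 16 * T ^ 4 * b ^ 2) * N) :=
        mul_le_mul_of_nonneg_left h3 (by positivity)
    _ = (e ^ 16 * (8 * e * a * b * (1 + b) + 16 * T ^ 4 * b ^ 2)) * N := by ring
    _ ≤ 3 * 10 ^ 12 * N := mul_le_mul_of_nonneg_right hK hN

/-- Polynomial removal bound for the pattern `I_2`. -/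
theorem removal_I2 (n : ℕ) (A : BMat n) (ε : ℝ) (hε : 0 < ε) (hε1 : ε < 1)
    (hfar : ∀ B : BMat n, IsFree patI2 B → ε * (n : ℝ) ^ 2 ≤ (hammingDist A B : ℝ)) :
    ε ^ 18 * (n : ℝ) ^ 4 ≤ 3 * 10 ^ 12 * (numCopies patI2 A : ℝ) := by
  rcases Nat.eq_zero_or_pos n with h0 | hn
  · subst h0
    simp
  · have ha1 : 4 ≤ ((⌈4 / ε⌉₊ : ℕ) : ℝ) * ε := by
      have := Nat.le_ceil (4 / ε)
      rwa [div_le_iff₀ hε] at this
    have ha2 : ((⌈4 / ε⌉₊ : ℕ) : ℝ) * ε ≤ 5 := by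
      have h1 := Nat.ceil_lt_add_one (by positivity : (0 : ℝ) ≤ 4 / ε)
      have h2 := mul_lt_mul_of_pos_right h1 hε
      have h3 : (4 / ε + 1) * ε = 4 + ε := by field_simp
      linarith
    generalize ((⌈4 / ε⌉₊ : ℕ)) = r1 at ha1 ha2
    have hb1 : 4 * (r1 : ℝ) ≤ ((⌈4 * (r1 : ℝ) / ε⌉₊ : ℕ) : ℝ) * ε := by
      have := Nat.le_ceil (4 * (r1 : ℝ) / ε)
      rwa [div_le_iff₀ hε] at this
    have hb2 : ((⌈4 * (r1 : ℝ) / ε⌉₊ : ℕ) : ℝ) * ε ^ 2 ≤ 21 := by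
      have h1 := Nat.ceil_lt_add_one (by positivity : (0 : ℝ) ≤ 4 * (r1 : ℝ) / ε)
      have h2 := mul_lt_mul_of_pos_right h1 (by positivity : (0 : ℝ) < ε ^ 2)
      have h3 : (4 * (r1 : ℝ) / ε + 1) * ε ^ 2 = 4 * ((r1 : ℝ) * ε) + ε ^ 2 := by field_simp
      have h4 : ε ^ 2 < 1 := by nlinarith
      linarith
    generalize ((⌈4 * (r1 : ℝ) / ε⌉₊ : ℕ)) = r2 at hb1 hb2
    exact arith3 (n : ℝ) (r1 : ℝ) (r2 : ℝ) ε (numCopies patI2 A : ℝ) (by exact_mod_cast hn) hε hε1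
      (Nat.cast_nonneg _) (Nat.cast_nonneg _) (Nat.cast_nonneg _) ha1 ha2 hb1 hb2
      (fun lam hlam => general A hn ε hfar r1 r2 lam hlam)

end Vale.Agent.Lib.P037.helper17
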