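import Mathlib
import Vale.Agent.Lib.P037.Defs
import Vale.Agent.Lib.P037.helper17.Main

/-!
Transfer of the removal bound from `I_2` to `J_2` by complementing all entries.
-/

namespace Vale.Agent.Lib.P037.helper17

open Finset Vale.Agent.Lib.P037

variable {n : ℕ}

/-- The pattern `J_2 = [[0, 1], [1, 0]]`. -/
def patJ2 : Fin 2 → Fin 2 → Bool := fun a b => decide (a ≠ b)

/-- Entrywise complement. -/
def cmpl (A : BMat n) : BMat n := fun i c => !(A i c)

theorem cmpl_cmpl (A : BMat n) : cmpl (cmpl A) = A := by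
  funext i c
  simp [cmpl]

theorem copy_cmpl (A : BMat n) (i j c d : Fin n) :
    IsCopy patJ2 A i j c d ↔ IsCopy patI2 (cmpl A) i j c d := by
  have e1 : patJ2 0 0 = false := by decide
  have e2 : patJ2 0 1 = true := by decide
  have e3 : patJ2 1 0 = true := by decide
  have e4 : patJ2 1 1 = false := by decide
  have e5 : patI2 0 0 = true := by decide
  have e6 : patI2 0 1 = false := by decide
  have e7 : patI2 1 0 = false := by decide
  have e8 : patI2 1 1 = true := by decide
  unfold IsCopy cmpl
  rw [e1, e2, e3, e4, e5, e6, e7, e8]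
  cases A i c <;> cases A i d <;> cases A j c <;> cases A j d <;> simp

theorem free_cmpl (A : BMat n) : IsFree patJ2 A ↔ IsFree patI2 (cmpl A) := by
  unfold IsFree
  simp only [copy_cmpl]

theorem numCopies_cmpl (A : BMat n) : numCopies patJ2 A = numCopies patI2 (cmpl A) := by
  unfold numCopies copySet
  simp only [copy_cmpl]

theorem dist_cmpl (A B : BMat n) : hammingDist (cmpl A) (cmpl B) = hammingDist A B := by
  unfold hammingDist cmpl
  congr 1
  apply Finset.filter_congr
  intro p _
  cases A p.1 p.2 <;> cases B p.1 p.2 <;> simp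

/-- Polynomial removal bound for the pattern `J_2`. -/
theorem removal_J2 (n : ℕ) (A : BMat n) (ε : ℝ) (hε : 0 < ε) (hε1 : ε < 1)
    (hfar : ∀ B : BMat n, IsFree patJ2 B → ε * (n : ℝ) ^ 2 ≤ (hammingDist A B : ℝ)) :
    ε ^ 18 * (n : ℝ) ^ 4 ≤ 3 * 10 ^ 12 * (numCopies patJ2 A : ℝ) := by
  rw [numCopies_cmpl]
  apply removal_I2 n (cmpl A) ε hε hε1
  intro B hB
  have h1 : IsFree patJ2 (cmpl B) := by
    rw [free_cmpl, cmpl_cmpl]
    exact hB
  have h2 := hfar (cmpl B) h1
  rw [← dist_cmpl, cmpl_cmpl] at h2
  exact h2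

/-- The two patterns with equal diagonal entries, equal off-diagonal entries and different
diagonal and off-diagonal values are `I_2` and `J_2`. -/
theorem perm_pattern (H : Fin 2 → Fin 2 → Bool) (h1 : H 0 0 = H 1 1) (h2 : H 0 1 = H 1 0)
    (h3 : H 0 0 ≠ H 0 1) : H = patI2 ∨ H = patJ2 := by
  rcases Bool.eq_false_or_eq_true (H 0 0) with h | h
  · left
    have h01 : H 0 1 = false := by
      cases hh : H 0 1
      · rfl
      · rw [h, hh] at h3; exact absurd rfl h3
    funext a b
    fin_cases a <;> fin_cases b <;> simp [patI2, h, h01, ← h1, ← h2]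
  · right
    have h01 : H 0 1 = true := by
      cases hh : H 0 1
      · rw [h, hh] at h3; exact absurd rfl h3
      · rfl
    funext a b
    fin_cases a <;> fin_cases b <;> simp [patJ2, h, h01, ← h1, ← h2]

end Vale.Agent.Lib.P037.helper17
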