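import Mathlib
import Vale.Agent.Lib.P037.Defs
import Vale.Agent.Lib.P037.helper17.Compl
import Vale.Agent.Lib.P037.helper17.Corner.Final
import Vale.Agent.Lib.P037.helper20.Sym
import Vale.Agent.Lib.P037.helper29.Degen

/-!
The removal bound with exponent `18` and constant `3 * 10^12` for every binary `2 x 2` pattern,
in the form of `Vale.Agent.Lib.P037.helper20.Removal`.
-/

namespace Vale.Agent.Lib.P037.helper17

open Vale.Agent.Lib.P037

/-- The corner pattern in the form used by the symmetry file. -/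
theorem removal_corner : Vale.Agent.Lib.P037.helper20.Removal Vale.Agent.Lib.P037.helper20.patL 18
    (3 * 10 ^ 12) := by
  intro n A ε hε hε1 hfar
  have h13 := Vale.Agent.Lib.P037.helper17.Corner.removal_L n A ε hε hε1 hfar
  have hN : (0 : ℝ) ≤ (numCopies Vale.Agent.Lib.P037.helper17.Corner.patL A : ℝ) :=
    Nat.cast_nonneg _
  have hpow : ε ^ 18 ≤ ε ^ 13 := pow_le_pow_of_le_one hε.le hε1.le (by norm_num)
  have hn4 : (0 : ℝ) ≤ (n : ℝ) ^ 4 := by positivity
  calc ε ^ 18 * (n : ℝ) ^ 4 ≤ ε ^ 13 * (n : ℝ) ^ 4 := mul_le_mul_of_nonneg_right hpow hn4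
    _ ≤ 2 * 10 ^ 10 * (numCopies Vale.Agent.Lib.P037.helper17.Corner.patL A : ℝ) := h13
    _ ≤ 3 * 10 ^ 12 * (numCopies Vale.Agent.Lib.P037.helper17.Corner.patL A : ℝ) :=
      mul_le_mul_of_nonneg_right (by norm_num) hN

/-- Every binary `2 x 2` pattern satisfies the removal bound with exponent `18` and constant
`3 * 10^12`. -/
theorem removal_two_by_two (H : Fin 2 → Fin 2 → Bool) :
    Vale.Agent.Lib.P037.helper20.Removal H 18 (3 * 10 ^ 12) := by
  intro n A ε hε hε1 hfar
  by_cases hdeg : H 0 = H 1 ∨ (fun a => H a 0) = (fun a => H a 1)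
  · exact Vale.Agent.Lib.P037.helper29.removal_degenerate H hdeg n A ε hε hε1 hfar
  · have hrow : H 0 ≠ H 1 := fun h => hdeg (Or.inl h)
    have hcol : (fun a => H a 0) ≠ (fun a => H a 1) := fun h => hdeg (Or.inr h)
    have hI : Vale.Agent.Lib.P037.helper20.Removal patI2 18 (3 * 10 ^ 12) :=
      fun n A ε hε hε1 hfar => removal_I2 n A ε hε hε1 hfar
    exact Vale.Agent.Lib.P037.helper20.removal_all 18 (3 * 10 ^ 12) hI removal_corner H hrow hcol
      n A ε hε hε1 hfar

end Vale.Agent.Lib.P037.helper17
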